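import Vale.Agent.P088.R2.H86.Z.Abs

/-!
# P088, stage 3, zone II: the one slot hypotheses `HS` from bounds at a point

`e` is the stiffness, `r` the distance to the diagonal: `|D W| ≤ C e r`, `|Λ W| ≤ C e`,
`F W ≥ c (e r)²`.
-/

open Set Filter
open scoped ContDiff Topology

noncomputable section

namespace Vale.Agent.P088.R2.H606.Z

open Vale.Agent.P088.R2.H961.GW Vale.Agent.P088.R2.H644 Vale.Agent.P088.R2.H960.W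
  Vale.Agent.P088.R2.H747.S Vale.Agent.P088.R2.H551.E Vale.Agent.P088.R2.H86.Z

variable {E ι : Type*} [NormedAddCommGroup E] [NormedSpace ℝ E] [Fintype ι]

/-- Bounds of a slot at a point. -/
structure SM (σ : Sl E ι) (z : E) : Prop where
  s2 : ∀ i j, |σ.s i j z| ≤ 2
  D1 : ∀ l i j, |σ.D l (σ.s i j) z| ≤ 1
  k1 : ∀ l, |σ.k l z| ≤ 1
  e1 : ∀ l, |eta σ l z| ≤ 1

/-- Bounds of a weight at a point; `e` is the stiffness, `r` the distance. -/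
structure SB (σ : Sl E ι) (W : E → ℝ) (C c e r : ℝ) (z : E) : Prop where
  W1 : ∀ i, |σ.D i W z| ≤ C * (e * r)
  W2 : |σ.Λ W z| ≤ C * e
  F0 : c * (e * r) ^ 2 ≤ σ.F W z

variable {σ : Sl E ι} {W χ k Z v f h : E → ℝ} {c : ι → E → ℝ} {z : E}

/-- The form `Γ`. -/
theorem G_le (hs : ∀ i j, |σ.s i j z| ≤ 2) {a b : ℝ} (hf : ∀ i, |σ.D i f z| ≤ a)
    (hh : ∀ i, |σ.D i h z| ≤ b) :
    |σ.Γ f h z| ≤ 2 * (Fintype.card ι : ℝ) ^ 2 * (a * b) := by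
  have h1 := abs_sum2_le (fun i j => σ.s i j z) hs (fun i => σ.D i f z) fun i => σ.D i h z
  have hc : ∀ g : ι → ℝ, ∀ M : ℝ, (∀ i, |g i| ≤ M) → ∑ i, |g i| ≤ Fintype.card ι * M := by
    intro g M hg
    calc ∑ i, |g i| ≤ ∑ _i : ι, M := Finset.sum_le_sum fun i _ => hg i
      _ = _ := by rw [Finset.sum_const, Finset.card_univ, nsmul_eq_mul]
  have h2 := hc _ _ hf
  have h3 := hc _ _ hh
  have h4 : 0 ≤ ∑ i, |σ.D i f z| := Finset.sum_nonneg fun i _ => abs_nonneg _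
  have h5 : 0 ≤ ∑ i, |σ.D i h z| := Finset.sum_nonneg fun i _ => abs_nonneg _
  have h6 := mul_le_mul h2 h3 h5 (h4.trans h2)
  unfold Sl.Γ
  calc _ ≤ 2 * ((∑ i, |σ.D i f z|) * ∑ j, |σ.D j h z|) := h1
    _ ≤ 2 * (Fintype.card ι * a * (Fintype.card ι * b)) := by linarith
    _ = _ := by ring

/-- The energy. -/
theorem en_of (m : SM σ z) {C C₂ c₀ e r η : ℝ} (b : SB σ W C c₀ e r z) (hr : 0 < r) (he : 0 ≤ e)
    (hk0 : 0 ≤ k z) (hk : ∀ i, |σ.D i k z| ≤ C₂ * (k z / r)) (hη : 0 ≤ η)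
    (hm : C * (1 + 2 * (Fintype.card ι : ℝ) ^ 2 * C₂) ≤ η * (c₀ * (e * r ^ 2))) :
    |k z * σ.Λ W z + σ.Γ k W z| ≤ η * (k z * σ.F W z) := by
  have h1 := G_le m.s2 hk b.W1
  have e1 : C₂ * (k z / r) * (C * (e * r)) = C₂ * C * (k z * e) := by
    field_simp
  rw [e1] at h1
  have h2 : |k z * σ.Λ W z| ≤ k z * (C * e) := by
    rw [abs_mul, abs_of_nonneg hk0]
    exact mul_le_mul_of_nonneg_left b.W2 hk0
  have h3 := mul_le_mul_of_nonneg_left hm (mul_nonneg hk0 he)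
  have h4 := mul_le_mul_of_nonneg_left b.F0 (mul_nonneg hη hk0)
  refine (abs_add_le _ _).trans ?_
  calc |k z * σ.Λ W z| + |σ.Γ k W z| ≤
      k z * (C * e) + 2 * (Fintype.card ι : ℝ) ^ 2 * (C₂ * C * (k z * e)) := add_le_add h2 h1
    _ = k z * e * (C * (1 + 2 * (Fintype.card ι : ℝ) ^ 2 * C₂)) := by ring
    _ ≤ k z * e * (η * (c₀ * (e * r ^ 2))) := h3
    _ = η * k z * (c₀ * (e * r) ^ 2) := by ring
    _ ≤ η * k z * σ.F W z := h4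
    _ = _ := by ring

/-- The derivative of the cut-off. -/
theorem ch_of (m : SM σ z) {C c₀ e r d : ℝ} (b : SB σ W C c₀ e r z) (hr : 0 ≤ r) (he : 0 ≤ e)
    (hk0 : 0 ≤ k z) (h1 : |χ z| ≤ 1) (hd : ∀ i, |σ.D i χ z| ≤ d)
    (hZ0 : 0 ≤ Z z) (hZ : 4 * (Fintype.card ι : ℝ) ^ 2 * (C * (k z * d)) ≤ Z z * (c₀ * (e * r))) :
    |2 * χ z * (k z * σ.Γ χ W z)| ≤ Z z * σ.F W z := by
  have h2 := G_le m.s2 hd b.W1
  have h3 : |2 * χ z * (k z * σ.Γ χ W z)| =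
      2 * k z * (|χ z| * |σ.Γ χ W z|) := by
    rw [abs_mul, abs_mul, abs_mul, abs_of_nonneg hk0, abs_of_pos (by norm_num : (0 : ℝ) < 2)]
    ring
  have h4 : |χ z| * |σ.Γ χ W z| ≤ 1 * (2 * (Fintype.card ι : ℝ) ^ 2 * (d * (C * (e * r)))) :=
    mul_le_mul h1 h2 (abs_nonneg _) zero_le_one
  have h5 := mul_le_mul_of_nonneg_right hZ (mul_nonneg he hr)
  have h6 := mul_le_mul_of_nonneg_left b.F0 hZ0
  have h7 := mul_le_mul_of_nonneg_left h4 (show 0 ≤ 2 * k z by linarith)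
  rw [h3]
  calc _ ≤ 2 * k z * (1 * (2 * (Fintype.card ι : ℝ) ^ 2 * (d * (C * (e * r))))) := h7
    _ = 4 * (Fintype.card ι : ℝ) ^ 2 * (C * (k z * d)) * (e * r) := by ring
    _ ≤ Z z * (c₀ * (e * r)) * (e * r) := h5
    _ = Z z * (c₀ * (e * r) ^ 2) := by ring
    _ ≤ _ := h6

/-- The fields. -/
theorem er_of (m : SM σ z) {C c₀ e r A₀ A₁ V κ₀ η : ℝ} (b : SB σ W C c₀ e r z) (hk0 : 0 ≤ k z)
    (h₀ : ∀ l, |c l z| ≤ A₀) (h₁ : ∀ i l, |σ.D i (c l) z| ≤ A₁) (A00 : 0 ≤ A₀) (A10 : 0 ≤ A₁)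
    (hv : v z ^ 2 ≤ V) (hκ : 0 < κ₀)
    (hF : 4 * A₀ * V ≤ η * (k z * (c₀ * (e * r) ^ 2)))
    (hm : (Fintype.card ι : ℝ) ^ 2 * (24 * A₁ + 44 * A₀) + (Fintype.card ι : ℝ) * (4 * A₀) +
      16 / κ₀ * (A₀ ^ 2 * Fintype.card ι) ≤ η * k z) (hη : 0 ≤ η) (a : E → ℝ) :
    8 * |eC σ c v W a z| + 16 / κ₀ * cY σ c W a z ^ 2 ≤
      η * (k z * ((∑ i, YY σ W a i z ^ 2) + σ.F W z * a z ^ 2)) := by
  have e1 := eC_bd (σ := σ) (c := c) (v := v) (W := W) (a := a) m.s2 m.D1 m.k1 m.e1 h₀ h₁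
    (by norm_num) (by norm_num) A00 A10
  have e2 := cY_sq (σ := σ) (W := W) (a := a) h₀
  set S : ℝ := ∑ i, YY σ W a i z ^ 2 with hS
  have S0 : 0 ≤ S := Finset.sum_nonneg fun i _ => sq_nonneg _
  set N : ℝ := (Fintype.card ι : ℝ) with hN
  have e3 : 16 / κ₀ * cY σ c W a z ^ 2 ≤ 16 / κ₀ * (A₀ ^ 2 * (N * S)) :=
    mul_le_mul_of_nonneg_left e2 (by positivity)
  have e4 : (v z * a z) ^ 2 ≤ V * a z ^ 2 := by
    rw [mul_pow]; exact mul_le_mul_of_nonneg_right hv (sq_nonneg _)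
  have e5 := mul_le_mul_of_nonneg_left e4 (show 0 ≤ 4 * A₀ by linarith)
  have e6 := mul_le_mul_of_nonneg_right hF (sq_nonneg (a z))
  have e7 := mul_le_mul_of_nonneg_right (mul_le_mul_of_nonneg_left b.F0 (mul_nonneg hη hk0))
    (sq_nonneg (a z))
  have e8 := mul_le_mul_of_nonneg_right hm S0
  have e9 : 8 * (N ^ 2 * (3 / 2 * 2 * A₁ + (5 / 2 * 2 + 1 / 2) * 1 * A₀) * S +
      1 / 2 * A₀ * ((v z * a z) ^ 2 + N * S)) + 16 / κ₀ * (A₀ ^ 2 * (N * S)) =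
      (N ^ 2 * (24 * A₁ + 44 * A₀) + N * (4 * A₀) + 16 / κ₀ * (A₀ ^ 2 * N)) * S +
        4 * A₀ * (v z * a z) ^ 2 := by ring
  calc 8 * |eC σ c v W a z| + 16 / κ₀ * cY σ c W a z ^ 2 ≤
      8 * (N ^ 2 * (3 / 2 * 2 * A₁ + (5 / 2 * 2 + 1 / 2) * 1 * A₀) * S +
      1 / 2 * A₀ * ((v z * a z) ^ 2 + N * S)) + 16 / κ₀ * (A₀ ^ 2 * (N * S)) := by linarith
    _ = _ := e9
    _ ≤ η * k z * S + 4 * A₀ * V * a z ^ 2 := by linarith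
    _ ≤ η * k z * S + η * (k z * (c₀ * (e * r) ^ 2)) * a z ^ 2 := by linarith
    _ ≤ η * k z * S + η * k z * σ.F W z * a z ^ 2 := by linarith
    _ = _ := by ring

/-- **The hypotheses of one slot in zone II from numbers.** -/
theorem hs_of (m : SM σ z) {C C₂ c₀ e r A₀ A₁ V d κ₀ η : ℝ} (b : SB σ W C c₀ e r z) (hr : 0 < r)
    (he : 0 ≤ e) (hk0 : 0 ≤ k z) (hk : ∀ i, |σ.D i k z| ≤ C₂ * (k z / r)) (hη : 0 ≤ η)
    (hm : C * (1 + 2 * (Fintype.card ι : ℝ) ^ 2 * C₂) ≤ η * (c₀ * (e * r ^ 2)))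
    (h1 : |χ z| ≤ 1) (hd : ∀ i, |σ.D i χ z| ≤ d) (hZ0 : 0 ≤ Z z)
    (hZ : 4 * (Fintype.card ι : ℝ) ^ 2 * (C * (k z * d)) ≤ Z z * (c₀ * (e * r)))
    (h₀ : ∀ l, |c l z| ≤ A₀) (h₁ : ∀ i l, |σ.D i (c l) z| ≤ A₁) (A00 : 0 ≤ A₀) (A10 : 0 ≤ A₁)
    (hv : v z ^ 2 ≤ V) (hκ : 0 < κ₀) (hF : 4 * A₀ * V ≤ η * (k z * (c₀ * (e * r) ^ 2)))
    (hA : (Fintype.card ι : ℝ) ^ 2 * (24 * A₁ + 44 * A₀) + (Fintype.card ι : ℝ) * (4 * A₀) +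
      16 / κ₀ * (A₀ ^ 2 * Fintype.card ι) ≤ η * k z) :
    HS σ W χ k Z v c κ₀ η z where
  en := en_of m b hr he hk0 hk hη hm
  ch := ch_of m b hr.le he hk0 h1 hd hZ0 hZ
  er := er_of m b hk0 h₀ h₁ A00 A10 hv hκ hF hA hη

end Vale.Agent.P088.R2.H606.Z
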