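import Mathlib.Analysis.SpecialFunctions.Pow.Asymptotics

/-!
# P088, stage 3, zone II: the convexity weight `k ≥ C (1 + N² / m²)`

`k = c₁ m (K / (K + m) + M + S)`: `K` the second derivative of the slope part, `M` the convexity
of the level, `S = σ / R`.
-/

open Set Filter
open scoped Topology

noncomputable section

namespace Vale.Agent.P088.R2.H606.Ke

/-- The weight `k`. -/
def kf (c₁ m K M S : ℝ) : ℝ := c₁ * m * (K / (K + m) + M + S)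

variable {c₁ m K M S C N X E s cl CB A : ℝ}

/-- `m K / (K + m) ≥ min / 2`. -/
theorem min_le (hm : 0 < m) (hK : 0 < K) (h1 : X ≤ K) (h2 : X ≤ m) : X / 2 ≤ m * (K / (K + m)) := by
  rw [← mul_div_assoc, div_le_div_iff₀ (by norm_num) (by linarith)]
  rcases le_total X 0 with h | h
  · nlinarith [mul_pos hm hK]
  · nlinarith [mul_le_mul_of_nonneg_left h1 hm.le, mul_le_mul_of_nonneg_left h2 hK.le]

/-- From the slope part. -/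
theorem ke_K (hc : 0 < c₁) (hm : 0 < m) (hK : 0 < K) (hM : 0 ≤ M) (hS : 0 ≤ S)
    (h1 : 2 * C / c₁ * (1 + N ^ 2 / m ^ 2) ≤ K) (h2 : 2 * C / c₁ * (1 + N ^ 2 / m ^ 2) ≤ m) :
    C * (1 + N ^ 2 / m ^ 2) ≤ kf c₁ m K M S := by
  have h := mul_le_mul_of_nonneg_left (min_le hm hK h1 h2) hc.le
  have e : c₁ * (2 * C / c₁ * (1 + N ^ 2 / m ^ 2) / 2) = C * (1 + N ^ 2 / m ^ 2) := by
    field_simp
  rw [e] at h
  have h3 : 0 ≤ c₁ * m * (M + S) := by positivity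
  unfold kf
  linarith

/-- From the convexity of the level. -/
theorem ke_M (hc : 0 < c₁) (hm : 0 < m) (hK : 0 < K) (hS : 0 ≤ S)
    (h : C * (1 + N ^ 2 / m ^ 2) ≤ c₁ * (m * M)) : C * (1 + N ^ 2 / m ^ 2) ≤ kf c₁ m K M S := by
  have h3 : 0 ≤ c₁ * m * (K / (K + m) + S) := by positivity
  unfold kf
  linarith

/-- **Deep levels**: `m ≥ CB / (2 S)`. -/
theorem ke_S (hc : 0 < c₁) (hm : 0 < m) (hK : 0 < K) (hM : 0 ≤ M) (hC : 0 ≤ C) (hN : 0 ≤ N)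
    (hNm : N ≤ m) (h : CB / 2 ≤ S * m) (hCB : 4 * C ≤ c₁ * CB) :
    C * (1 + N ^ 2 / m ^ 2) ≤ kf c₁ m K M S := by
  have h1 : N ^ 2 / m ^ 2 ≤ 1 := by
    rw [div_le_one (by positivity)]
    exact pow_le_pow_left₀ hN hNm 2
  have h2 := mul_le_mul_of_nonneg_left h1 hC
  have h3 : 0 ≤ c₁ * m * (K / (K + m) + M) := by positivity
  have h4 := mul_le_mul_of_nonneg_left h hc.le
  unfold kf
  linarith

/-- Four conditions. -/
theorem ke_4 (hc : 0 < c₁) (hm : 0 < m) (hK : 0 < K) (hM : 0 ≤ M) (hS : 0 ≤ S) (hX : 4 * C ≤ c₁ * X)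
    (h1 : X ≤ K) (h2 : X ≤ m) (h3 : X * N ^ 2 ≤ K * m ^ 2) (h4 : X * N ^ 2 ≤ m ^ 3) :
    C * (1 + N ^ 2 / m ^ 2) ≤ kf c₁ m K M S := by
  have hm2 : 0 < m ^ 2 := by positivity
  have e : 4 * C / c₁ ≤ X := by
    rw [div_le_iff₀ hc]; linarith
  have q : ∀ Y : ℝ, X ≤ Y → X * N ^ 2 ≤ Y * m ^ 2 → 2 * C / c₁ * (1 + N ^ 2 / m ^ 2) ≤ Y := by
    intro Y a1 a2
    have a3 : X * (N ^ 2 / m ^ 2) ≤ Y := by
      rw [← mul_div_assoc, div_le_iff₀ hm2]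
      exact a2
    have a4 : 2 * C / c₁ * (1 + N ^ 2 / m ^ 2) = 4 * C / c₁ * ((1 + N ^ 2 / m ^ 2) / 2) := by ring
    have a5 : 0 ≤ (1 + N ^ 2 / m ^ 2) / 2 := by positivity
    have a6 := mul_le_mul_of_nonneg_right e a5
    rw [a4]
    linarith
  exact ke_K hc hm hK hM hS (q K h1 h3) (q m h2 (by
    have : m * m ^ 2 = m ^ 3 := by ring
    rw [this]; exact h4))

/-- A power is large. -/
theorem ex_pow (Y : ℝ) {e : ℝ} (he : 0 < e) : ∃ N₀ : ℝ, 1 ≤ N₀ ∧ ∀ N, N₀ ≤ N → Y ≤ N ^ e := by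
  have h := (tendsto_rpow_atTop he).eventually_ge_atTop Y
  obtain ⟨N₁, h1⟩ := (h.and (eventually_ge_atTop 1)).exists_forall_of_atTop
  exact ⟨max N₁ 1, le_max_right _ _, fun N hN => (h1 N ((le_max_left _ _).trans hN)).1⟩

/-- **The window**: `K ≥ N^{9/10}` and `m ≥ cl K` or `m ≥ N^{169/250} / 2`. -/
theorem ke_win {c₁ C cl : ℝ} (hc : 0 < c₁) (hcl : 0 < cl) : ∃ N₀ : ℝ, 1 ≤ N₀ ∧
    ∀ N K m M S : ℝ, N₀ ≤ N → 0 < m → 0 ≤ M → 0 ≤ S → N ^ (9 / 10 : ℝ) ≤ K →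
      (cl * K ≤ m ∨ N ^ (169 / 250 : ℝ) / 2 ≤ m) →
      C * (1 + N ^ 2 / m ^ 2) ≤ kf c₁ m K M S := by
  set X : ℝ := max 1 (4 * C / c₁) with hX
  have hX1 : 1 ≤ X := le_max_left _ _
  have hXc : 4 * C ≤ c₁ * X := by
    have : 4 * C / c₁ ≤ X := le_max_right _ _
    rw [div_le_iff₀ hc] at this
    linarith
  set Y : ℝ := 8 * X * (1 + 1 / cl) ^ 3 with hY
  have hcl1 : 0 < 1 / cl := by positivity
  obtain ⟨N₀, h0, hN₀⟩ := ex_pow Y (e := 7 / 250) (by norm_num)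
  refine ⟨N₀, h0, fun N K m M S hN hm hM hS hK hmm => ?_⟩
  have hN1 : 1 ≤ N := h0.trans hN
  have hN0 : 0 < N := by linarith
  have hy := hN₀ N hN
  have p1 : ∀ a : ℝ, 7 / 250 ≤ a → Y ≤ N ^ a := fun a ha =>
    hy.trans (Real.rpow_le_rpow_of_exponent_le hN1 ha)
  have hY8 : 8 * X ≤ Y := by
    have : 1 ≤ (1 + 1 / cl) ^ 3 := one_le_pow₀ (by linarith)
    nlinarith
  have hYc : ∀ j : ℕ, j ≤ 3 → X * (1 / cl) ^ j ≤ Y := by
    intro j hj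
    have h1 : (1 / cl) ^ j ≤ (1 + 1 / cl) ^ j := pow_le_pow_left₀ hcl1.le (by linarith) j
    have h2 : (1 + 1 / cl) ^ j ≤ (1 + 1 / cl) ^ 3 := pow_le_pow_right₀ (by linarith) hj
    have h3 : X * (1 / cl) ^ j ≤ X * (1 + 1 / cl) ^ 3 :=
      mul_le_mul_of_nonneg_left (h1.trans h2) (by linarith)
    have h4 : 0 ≤ X * (1 + 1 / cl) ^ 3 := by positivity
    linarith
  have hK0 : 0 < K := lt_of_lt_of_le (Real.rpow_pos_of_pos hN0 _) hK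
  have hKX : X ≤ K := by
    have := p1 (9 / 10) (by norm_num)
    linarith
  have hn2 : N ^ 2 = N ^ (2 : ℝ) := by norm_cast
  -- N^a = N^(a-2) N^2
  have sp : ∀ a : ℝ, N ^ (2 + a) = N ^ a * N ^ 2 := fun a => by
    rw [hn2, ← Real.rpow_add hN0]; congr 1; ring
  rcases hmm with h | h
  · -- `m ≥ cl K ≥ cl N^{9/10}`
    have hm9 : cl * N ^ (9 / 10 : ℝ) ≤ m := (mul_le_mul_of_nonneg_left hK hcl.le).trans h
    have q9 : (N ^ (9 / 10 : ℝ)) ^ 3 = N ^ (7 / 10 : ℝ) * N ^ 2 := by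
      rw [← sp, ← Real.rpow_natCast, ← Real.rpow_mul hN0.le]; norm_num
    have hp : 0 < N ^ (9 / 10 : ℝ) := Real.rpow_pos_of_pos hN0 _
    refine ke_4 hc hm hK0 hM hS hXc hKX ?_ ?_ ?_
    · have h1 : X * (1 / cl) ^ 1 ≤ N ^ (9 / 10 : ℝ) := (hYc 1 (by norm_num)).trans
        (p1 _ (by norm_num))
      have h2 := mul_le_mul_of_nonneg_left h1 hcl.le
      have e : cl * (X * (1 / cl) ^ 1) = X := by field_simp
      rw [e] at h2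
      exact h2.trans hm9
    · have h1 : X * (1 / cl) ^ 2 ≤ N ^ (7 / 10 : ℝ) := (hYc 2 (by norm_num)).trans
        (p1 _ (by norm_num))
      have h2 : cl ^ 2 * (X * (1 / cl) ^ 2 * N ^ 2) ≤ cl ^ 2 * (N ^ (9 / 10 : ℝ)) ^ 3 := by
        rw [q9]
        gcongr
      have e : cl ^ 2 * (X * (1 / cl) ^ 2 * N ^ 2) = X * N ^ 2 := by field_simp
      rw [e] at h2
      calc X * N ^ 2 ≤ cl ^ 2 * (N ^ (9 / 10 : ℝ)) ^ 3 := h2
        _ = N ^ (9 / 10 : ℝ) * (cl * N ^ (9 / 10 : ℝ)) ^ 2 := by ring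
        _ ≤ K * m ^ 2 := by gcongr
    · have h1 : X * (1 / cl) ^ 3 ≤ N ^ (7 / 10 : ℝ) := (hYc 3 (by norm_num)).trans
        (p1 _ (by norm_num))
      have h2 : cl ^ 3 * (X * (1 / cl) ^ 3 * N ^ 2) ≤ cl ^ 3 * (N ^ (9 / 10 : ℝ)) ^ 3 := by
        rw [q9]
        gcongr
      have e : cl ^ 3 * (X * (1 / cl) ^ 3 * N ^ 2) = X * N ^ 2 := by field_simp
      rw [e] at h2
      calc X * N ^ 2 ≤ cl ^ 3 * (N ^ (9 / 10 : ℝ)) ^ 3 := h2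
        _ = (cl * N ^ (9 / 10 : ℝ)) ^ 3 := by ring
        _ ≤ m ^ 3 := by gcongr
  · have hp : 0 < N ^ (169 / 250 : ℝ) := Real.rpow_pos_of_pos hN0 _
    refine ke_4 hc hm hK0 hM hS hXc hKX ?_ ?_ ?_
    · have := p1 (169 / 250) (by norm_num)
      linarith
    · have e : N ^ (9 / 10 : ℝ) * (N ^ (169 / 250 : ℝ) / 2) ^ 2 =
          1 / 4 * (N ^ (63 / 250 : ℝ) * N ^ 2) := by
        have : N ^ (9 / 10 : ℝ) * (N ^ (169 / 250 : ℝ)) ^ 2 = N ^ (63 / 250 : ℝ) * N ^ 2 := by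
          rw [← sp, ← Real.rpow_natCast, ← Real.rpow_mul hN0.le, ← Real.rpow_add hN0]
          norm_num
        rw [← this]; ring
      have h1 := p1 (63 / 250) (by norm_num)
      have h2 : X ≤ 1 / 4 * N ^ (63 / 250 : ℝ) := by linarith
      calc X * N ^ 2 ≤ 1 / 4 * N ^ (63 / 250 : ℝ) * N ^ 2 := by gcongr
        _ = N ^ (9 / 10 : ℝ) * (N ^ (169 / 250 : ℝ) / 2) ^ 2 := by rw [e]; ring
        _ ≤ K * m ^ 2 := by gcongr
    · have e : (N ^ (169 / 250 : ℝ) / 2) ^ 3 = 1 / 8 * (N ^ (7 / 250 : ℝ) * N ^ 2) := by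
        have : (N ^ (169 / 250 : ℝ)) ^ 3 = N ^ (7 / 250 : ℝ) * N ^ 2 := by
          rw [← sp, ← Real.rpow_natCast, ← Real.rpow_mul hN0.le]
          norm_num
        rw [← this]; ring
      have h2 : X ≤ 1 / 8 * N ^ (7 / 250 : ℝ) := by linarith
      calc X * N ^ 2 ≤ 1 / 8 * N ^ (7 / 250 : ℝ) * N ^ 2 := by gcongr
        _ = (N ^ (169 / 250 : ℝ) / 2) ^ 3 := by rw [e]; ring
        _ ≤ m ^ 3 := by gcongr

/-- **The reverse pass**: `K ≥ N` and `m³ ≥ X N²`. -/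
theorem ke_rev {c₁ C : ℝ} (hc : 0 < c₁) : ∃ X : ℝ, 1 ≤ X ∧
    ∀ N K m M S : ℝ, X ≤ N → 0 ≤ M → 0 ≤ S → N ≤ K → X ≤ m → X * N ^ 2 ≤ m ^ 3 →
      C * (1 + N ^ 2 / m ^ 2) ≤ kf c₁ m K M S := by
  set X : ℝ := max 1 (4 * C / c₁) with hX
  have hX1 : 1 ≤ X := le_max_left _ _
  have hXc : 4 * C ≤ c₁ * X := by
    have : 4 * C / c₁ ≤ X := le_max_right _ _
    rw [div_le_iff₀ hc] at this
    linarith
  refine ⟨X, hX1, fun N K m M S hN hM hS hK hm h3 => ?_⟩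
  have hm0 : 0 < m := by linarith
  have hN0 : 0 < N := by linarith
  have hK0 : 0 < K := by linarith
  refine ke_4 hc hm0 hK0 hM hS hXc (hN.trans hK) hm ?_ h3
  -- `K m² ≥ N m² ≥ X N²`
  by_cases hmN : N ≤ m
  · calc X * N ^ 2 ≤ N * N ^ 2 := by gcongr
      _ ≤ K * m ^ 2 := by gcongr
  · have h4 : m ^ 3 ≤ N * m ^ 2 := by
      have : m ^ 3 = m * m ^ 2 := by ring
      rw [this]
      exact mul_le_mul_of_nonneg_right (not_le.1 hmN).le (sq_nonneg _)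
    have h5 : N * m ^ 2 ≤ K * m ^ 2 := mul_le_mul_of_nonneg_right hK (sq_nonneg _)
    linarith

/-- **Above the window**: `E ≥ N^{66/25}`, `m ≥ E^{13/50} / 2`, `M ≥ A s^{-5/2}`, `s ≤ log E`. -/
theorem ke_mu {c₁ C A : ℝ} (hc : 0 < c₁) (hC : 0 ≤ C) (hA : 0 < A) : ∃ E₀ : ℝ, 1 ≤ E₀ ∧
    ∀ N K m M S E s : ℝ, E₀ ≤ E → 1 ≤ N → N ^ (66 / 25 : ℝ) ≤ E → 0 < K → 0 ≤ S →
      E ^ (13 / 50 : ℝ) / 2 ≤ m → 0 < s → s ≤ Real.log E → A * s ^ (-(5 / 2) : ℝ) ≤ M →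
      C * (1 + N ^ 2 / m ^ 2) ≤ kf c₁ m K M S := by
  -- `(log E)^{5/2} ≤ δ E^{1/50}`
  set δ : ℝ := c₁ * A / (10 * (C + 1)) with hδ
  have hδ0 : 0 < δ := by positivity
  have h1 : ∀ᶠ E : ℝ in atTop, (Real.log E) ^ (5 / 2 : ℝ) ≤ δ * E ^ (1 / 50 : ℝ) := by
    have h := (isLittleO_log_rpow_rpow_atTop (5 / 2 : ℝ) (by norm_num : (0 : ℝ) < 1 / 50)).bound hδ0
    filter_upwards [h, eventually_ge_atTop 1] with E hE h1
    have a1 : 0 ≤ Real.log E := Real.log_nonneg h1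
    rw [Real.norm_of_nonneg (Real.rpow_nonneg a1 _),
      Real.norm_of_nonneg (Real.rpow_nonneg (by linarith) _)] at hE
    exact hE
  obtain ⟨E₁, hE₁⟩ := (h1.and (eventually_ge_atTop 1)).exists_forall_of_atTop
  refine ⟨max E₁ 1, le_max_right _ _, fun N K m M S E s hE hN hNE hK hS hm hs0 hs hM => ?_⟩
  have hE1 : 1 ≤ E := (le_max_right _ _).trans hE
  have hE0 : 0 < E := by linarith
  have hlog := (hE₁ E ((le_max_left _ _).trans hE)).1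
  have hp : 0 < E ^ (13 / 50 : ℝ) := Real.rpow_pos_of_pos hE0 _
  have hm0 : 0 < m := by linarith
  refine ke_M hc hm0 hK hS ?_
  -- `N² ≤ E^{25/33}`
  have hN2 : N ^ 2 ≤ E ^ (25 / 33 : ℝ) := by
    have h2 : (N ^ (66 / 25 : ℝ)) ^ (25 / 33 : ℝ) ≤ E ^ (25 / 33 : ℝ) :=
      Real.rpow_le_rpow (Real.rpow_nonneg (by linarith) _) hNE (by norm_num)
    rw [← Real.rpow_mul (by linarith)] at h2
    have e : (66 / 25 * (25 / 33) : ℝ) = ((2 : ℕ) : ℝ) := by norm_num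
    rw [e, Real.rpow_natCast] at h2
    exact h2
  have hm2 : E ^ (13 / 25 : ℝ) / 4 ≤ m ^ 2 := by
    have h2 : (E ^ (13 / 50 : ℝ) / 2) ^ 2 ≤ m ^ 2 := pow_le_pow_left₀ (by positivity) hm 2
    have e : (E ^ (13 / 50 : ℝ) / 2) ^ 2 = E ^ (13 / 25 : ℝ) / 4 := by
      rw [div_pow, ← Real.rpow_natCast, ← Real.rpow_mul hE0.le]
      norm_num
    rw [← e]; exact h2
  have hr : N ^ 2 / m ^ 2 ≤ 4 * E ^ (6 / 25 : ℝ) := by
    have hq : 0 < E ^ (13 / 25 : ℝ) := Real.rpow_pos_of_pos hE0 _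
    rw [div_le_iff₀ (by positivity)]
    have h3 : E ^ (25 / 33 : ℝ) ≤ E ^ (6 / 25 : ℝ) * E ^ (13 / 25 : ℝ) := by
      rw [← Real.rpow_add hE0]
      exact Real.rpow_le_rpow_of_exponent_le hE1 (by norm_num)
    have h4 : 4 * E ^ (6 / 25 : ℝ) * (E ^ (13 / 25 : ℝ) / 4) ≤ 4 * E ^ (6 / 25 : ℝ) * m ^ 2 := by
      gcongr
    linarith
  have hone : 1 ≤ E ^ (6 / 25 : ℝ) := Real.one_le_rpow hE1 (by norm_num)
  have hL : C * (1 + N ^ 2 / m ^ 2) ≤ 5 * C * E ^ (6 / 25 : ℝ) := by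
    have := mul_le_mul_of_nonneg_left (add_le_add hone hr) hC
    linarith
  -- the right side
  have hls : 0 < Real.log E := hs0.trans_le hs
  have hs2 : (Real.log E) ^ (-(5 / 2) : ℝ) ≤ s ^ (-(5 / 2) : ℝ) :=
    Real.rpow_le_rpow_of_nonpos hs0 hs (by norm_num)
  have hlog0 : 0 < (Real.log E) ^ (5 / 2 : ℝ) := Real.rpow_pos_of_pos hls _
  have e1 : (Real.log E) ^ (-(5 / 2) : ℝ) = ((Real.log E) ^ (5 / 2 : ℝ))⁻¹ := Real.rpow_neg hls.le _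
  have hq0 : 0 < E ^ (1 / 50 : ℝ) := Real.rpow_pos_of_pos hE0 _
  have e2 : (δ * E ^ (1 / 50 : ℝ))⁻¹ ≤ (Real.log E) ^ (-(5 / 2) : ℝ) := by
    rw [e1]
    exact inv_anti₀ hlog0 hlog
  have hMM : A * (δ * E ^ (1 / 50 : ℝ))⁻¹ ≤ M :=
    (mul_le_mul_of_nonneg_left (e2.trans hs2) hA.le).trans hM
  have h5 : c₁ * (E ^ (13 / 50 : ℝ) / 2 * (A * (δ * E ^ (1 / 50 : ℝ))⁻¹)) ≤ c₁ * (m * M) := by
    have h6 : 0 ≤ A * (δ * E ^ (1 / 50 : ℝ))⁻¹ := by positivity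
    gcongr
  refine hL.trans (le_trans ?_ h5)
  have e3 : E ^ (13 / 50 : ℝ) = E ^ (6 / 25 : ℝ) * E ^ (1 / 50 : ℝ) := by
    rw [← Real.rpow_add hE0]; norm_num
  have e4 : c₁ * (E ^ (13 / 50 : ℝ) / 2 * (A * (δ * E ^ (1 / 50 : ℝ))⁻¹)) =
      5 * (C + 1) * E ^ (6 / 25 : ℝ) := by
    rw [e3, hδ]
    field_simp
    norm_num
  rw [e4]
  have : 0 < E ^ (6 / 25 : ℝ) := Real.rpow_pos_of_pos hE0 _
  nlinarith

end Vale.Agent.P088.R2.H606.Ke
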