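import Vale.Agent.P088.R2.H606.Z.Wb
import Vale.Agent.P088.R2.H464.EP.Fin

/-!
# P088, stage 3, zone II: the gradient of the weight near the diagonal is `≥ c E r`
-/

open Set Filter
open scoped ContDiff Topology

noncomputable section

namespace Vale.Agent.P088.R2.H606.Z

open Vale.Agent.P088.LR Vale.Agent.P088.HY Vale.Agent.P088.R2.H961.GW Vale.Agent.P088.R2.H464.Cu
  Vale.Agent.P088.R2.H960.W

variable {n : ℕ} {O : Set (V n)} {ε δ₁ δ₂ ε' δ₁' δ₂' : ℝ} {g s : MF n} {z w w' : VV n}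
  {Uz : Set (VV n)} {A a r : ℝ} {u : VV n → ℝ} {Φ Φ₁ Φ₂ S S₁ S₂ : ℝ → ℝ}

/-- The smallness of `r` and of the slope. -/
def c00 (n : ℕ) (A : ℝ) : ℝ := 1 / (64 * n * (1 + A) ^ 2 * (1 + 4 * (n : ℝ) ^ 3))

theorem c00_pos (hn : 0 < n) (hA : 0 ≤ A) : 0 < c00 n A := by
  have : (0 : ℝ) < n := by exact_mod_cast hn
  unfold c00; positivity

theorem c00_mul (hn : 0 < n) (hA : 0 ≤ A) :
    c00 n A * (64 * n * (1 + A) ^ 2 * (1 + 4 * (n : ℝ) ^ 3)) = 1 := by
  have : (0 : ℝ) < n := by exact_mod_cast hn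
  unfold c00
  field_simp

/-- Arithmetic. -/
theorem lb_ar {E r a A q X m N' : ℝ} (hN : 1 ≤ m) (hA : 0 ≤ A) (hE : 0 < E) (hr : 0 < r)
    (c : ℝ) (hc : c * (64 * m * (1 + A) ^ 2 * (1 + 4 * m ^ 3)) = 1) (hc0 : 0 < c)
    (hrc : r ≤ c) (hac : a ≤ c) (h1 : r ≤ 2 * m * q) (hX : E * q / 4 ≤ X)
    (hN' : N' = (a * (E * r) + E * (A * r ^ 2)) * A + 4 * (E * (1 + A) * m ^ 3) * r ^ 2) :
    E * r / (16 * m) ≤ X - N' := by
  have hm0 : 0 < m := by linarith
  have b1 : 1 ≤ (1 + A) ^ 2 := one_le_pow₀ (by linarith)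
  have b3 : 1 ≤ 1 + 4 * m ^ 3 := by
    have : 0 ≤ m ^ 3 := by positivity
    linarith
  -- c * 64 m A ≤ 1
  have k1 : c * A * (64 * m) ≤ 1 := by
    refine le_trans ?_ hc.le
    have : A ≤ (1 + A) ^ 2 * (1 + 4 * m ^ 3) := by
      calc A ≤ (1 + A) ^ 2 * 1 := by nlinarith
        _ ≤ _ := mul_le_mul_of_nonneg_left b3 (by positivity)
    calc c * A * (64 * m) = c * (64 * m) * A := by ring
      _ ≤ c * (64 * m) * ((1 + A) ^ 2 * (1 + 4 * m ^ 3)) :=
          mul_le_mul_of_nonneg_left this (by positivity)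
      _ = _ := by ring
  have k2 : c * A ^ 2 * (64 * m) ≤ 1 := by
    refine le_trans ?_ hc.le
    have : A ^ 2 ≤ (1 + A) ^ 2 * (1 + 4 * m ^ 3) := by
      calc A ^ 2 ≤ (1 + A) ^ 2 * 1 := by nlinarith
        _ ≤ _ := mul_le_mul_of_nonneg_left b3 (by positivity)
    calc c * A ^ 2 * (64 * m) = c * (64 * m) * A ^ 2 := by ring
      _ ≤ c * (64 * m) * ((1 + A) ^ 2 * (1 + 4 * m ^ 3)) :=
          mul_le_mul_of_nonneg_left this (by positivity)
      _ = _ := by ring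
  have k3 : c * (4 * (1 + A) * m ^ 3) * (64 * m) ≤ 1 := by
    refine le_trans ?_ hc.le
    have : 4 * (1 + A) * m ^ 3 ≤ (1 + A) ^ 2 * (1 + 4 * m ^ 3) := by
      have h5 : (1 + A) ≤ (1 + A) ^ 2 := by nlinarith
      have h6 : 0 ≤ 4 * m ^ 3 := by positivity
      calc 4 * (1 + A) * m ^ 3 = (1 + A) * (4 * m ^ 3) := by ring
        _ ≤ (1 + A) ^ 2 * (1 + 4 * m ^ 3) := mul_le_mul h5 (by linarith) h6 (by positivity)
    calc c * (4 * (1 + A) * m ^ 3) * (64 * m) = c * (64 * m) * (4 * (1 + A) * m ^ 3) := by ring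
      _ ≤ c * (64 * m) * ((1 + A) ^ 2 * (1 + 4 * m ^ 3)) :=
          mul_le_mul_of_nonneg_left this (by positivity)
      _ = _ := by ring
  have hEr : 0 < E * r := mul_pos hE hr
  have e0 : E * r / (8 * m) ≤ E * q / 4 := by
    rw [div_le_div_iff₀ (by positivity) (by norm_num)]
    have := mul_le_mul_of_nonneg_left h1 hE.le
    nlinarith
  have e1 : a * (E * r) * A ≤ E * r / (64 * m) := by
    rw [le_div_iff₀ (by positivity)]
    have : a * A * (64 * m) ≤ 1 := (mul_le_mul_of_nonneg_right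
      (mul_le_mul_of_nonneg_right hac hA) (by positivity)).trans k1
    nlinarith
  have e2 : E * (A * r ^ 2) * A ≤ E * r / (64 * m) := by
    rw [le_div_iff₀ (by positivity)]
    have : r * A ^ 2 * (64 * m) ≤ 1 := (mul_le_mul_of_nonneg_right
      (mul_le_mul_of_nonneg_right hrc (sq_nonneg A)) (by positivity)).trans k2
    nlinarith
  have e3 : 4 * (E * (1 + A) * m ^ 3) * r ^ 2 ≤ E * r / (64 * m) := by
    rw [le_div_iff₀ (by positivity)]
    have : r * (4 * (1 + A) * m ^ 3) * (64 * m) ≤ 1 := (mul_le_mul_of_nonneg_right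
      (mul_le_mul_of_nonneg_right hrc (by positivity)) (by positivity)).trans k3
    nlinarith
  have e4 : E * r / (8 * m) = 2 * (E * r / (16 * m)) := by field_simp; ring
  have e5 : E * r / (16 * m) = 4 * (E * r / (64 * m)) := by field_simp; ring
  have e6 : 0 < E * r / (64 * m) := by positivity
  rw [hN']
  linarith

/-- **The lower bound of the gradient along `w i`, `dif (w i) = ± e_i`.** -/
theorem Wg_lb (h : Pt A a Φ₁ Φ₂ S S₁ S₂ u g r z) (hn : 0 < n) (f : FS Φ Φ₁ Φ₂ S S₁ S₂)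
    (hu : D2 Uz A u) (hz : z ∈ Uz) (hO : IsOpen O) (ng : Nr O ε δ₁ δ₂ g) (hε : n * ε ≤ 1 / 2)
    (hδ : δ₁ ≤ 1) (hm : mid z ∈ O) (hA : 0 ≤ A) (hac : a ≤ c00 n A)
    (hrc : r ≤ c00 n A) {w : Fin n → VV n} {t : ℝ} (ht : |t| = 1)
    (hw : ∀ i, dif (w i) = t • Pi.single i 1) (hw1 : ∀ i, ‖w i‖ ≤ 1) :
    ∃ i, Real.exp (u z) * r / (16 * n) ≤ |fderiv ℝ (Wg Φ S u g) z (w i)| := by
  have hn1 : (1 : ℝ) ≤ n := by exact_mod_cast hn
  have hq := h.q_le hn ng hε hm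
  have hq' := h.q_ge hn ng hε hm
  have hr0 := h.r0
  have hE := Real.exp_pos (u z)
  obtain ⟨i, hi⟩ := exists_norm hn (up (g (mid z)) (dif z))
  have h2 := up_ge ng hε hm (dif z)
  refine ⟨i, ?_⟩
  rw [(Wg_d f hu hz hO ng.sm hm (w i)).e]
  have e1 : fderiv ℝ (rq g) z (w i) = t * up (g (mid z)) (dif z) i +
      1 / 2 * bf (dg (mid (w i)) g (mid z)) (dif z) (dif z) := by
    rw [(rq_d (fun i j => df_of hO (ng.sm i j) hm) ng.sy (w i)).e, hw i]
    congr 1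
    unfold bf up
    have e2 : ∀ k j, g (mid z) k j * (t • (Pi.single i 1 : V n)) k * dif z j =
        if k = i then t * (g (mid z) i j * dif z j) else 0 := by
      intro k j
      by_cases hk : k = i
      · subst hk; simp; ring
      · simp [hk]
    simp only [e2]
    rw [Finset.sum_comm]
    simp only [Finset.sum_ite_eq', Finset.mem_univ, if_true, Finset.mul_sum]
    exact Finset.sum_congr rfl fun j _ => by rw [ng.sy (mid z) j i]
  have hmw : ‖mid (w i)‖ ≤ 1 := (nm_le _).trans (hw1 i)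
  have e3 : |bf (dg (mid (w i)) g (mid z)) (dif z) (dif z)| ≤ 4 * (n : ℝ) ^ 3 * r ^ 2 := by
    have d0 : 0 ≤ (n : ℝ) * (‖mid (w i)‖ * δ₁) :=
      (abs_nonneg _).trans (ng.dg hm (mid (w i)) i i)
    refine (bf_le d0 (fun i' j => ng.dg hm (mid (w i)) i' j) _ _).trans ?_
    have h3 : (n : ℝ) * (‖mid (w i)‖ * δ₁) ≤ n * 1 := by
      refine mul_le_mul_of_nonneg_left ?_ (by linarith)
      calc ‖mid (w i)‖ * δ₁ ≤ ‖mid (w i)‖ * 1 := mul_le_mul_of_nonneg_left hδ (norm_nonneg _)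
        _ ≤ 1 := by linarith
    have h4 := norm_nonneg (dif z)
    calc (n : ℝ) ^ 2 * ((n : ℝ) * (‖mid (w i)‖ * δ₁) * ‖dif z‖ * ‖dif z‖) ≤
        (n : ℝ) ^ 2 * ((n : ℝ) * 1 * (2 * r) * (2 * r)) := by gcongr
      _ = _ := by ring
  have hS := h.s1
  have hAr : A * r ^ 2 ≤ 1 / 4 := by
    have hc := c00_mul hn hA
    have hcp := c00_pos hn hA
    have h5 : A * r ≤ 1 / 4 := by
      have h6 : A * r ≤ A * c00 n A := mul_le_mul_of_nonneg_left hrc hA
      have h7 : 64 * (A * c00 n A) ≤ c00 n A * (64 * n * (1 + A) ^ 2 * (1 + 4 * (n : ℝ) ^ 3)) := by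
        have h8 : A ≤ n * (1 + A) ^ 2 * (1 + 4 * (n : ℝ) ^ 3) := by
          have h9 : (1 : ℝ) ≤ 1 + 4 * (n : ℝ) ^ 3 := by
            have : (0 : ℝ) ≤ (n : ℝ) ^ 3 := by positivity
            linarith
          calc A ≤ 1 * (1 + A) ^ 2 * 1 := by nlinarith
            _ ≤ n * (1 + A) ^ 2 * (1 + 4 * (n : ℝ) ^ 3) := by gcongr
        nlinarith
      linarith
    have h8 : r ≤ 1 := by linarith [h.r1]
    nlinarith
  have t2 : |S₁ (2 * rq g z)| ≤ 1 + A := by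
    have h3 : S₁ (2 * rq g z) = (S₁ (2 * rq g z) - 1 / 2) + 1 / 2 := by ring
    rw [h3]
    refine (abs_add_le _ _).trans ?_
    rw [abs_of_pos (by norm_num : (0 : ℝ) < 1 / 2)]
    linarith
  have t3 : 1 / 4 ≤ |S₁ (2 * rq g z)| := by
    have h3 := (abs_le.1 hS).1
    refine le_trans ?_ (le_abs_self _)
    linarith
  have t1 : |Φ₁ (u z) + Real.exp (u z) * S (2 * rq g z)| ≤
      a * (Real.exp (u z) * r) + Real.exp (u z) * (A * r ^ 2) := by
    refine (abs_add_le _ _).trans (add_le_add h.n1 ?_)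
    rw [abs_mul, abs_of_pos hE]
    exact mul_le_mul_of_nonneg_left h.sS hE.le
  have d1 : |fderiv ℝ u z (w i)| ≤ A := by
    have := hu.d1 z hz (w i)
    have h3 := mul_le_mul_of_nonneg_left (hw1 i) hA
    linarith
  rw [e1]
  set E := Real.exp (u z) with hEd
  set X := 2 * (E * S₁ (2 * rq g z)) * (t * up (g (mid z)) (dif z) i) with hX
  set Y := (Φ₁ (u z) + E * S (2 * rq g z)) * fderiv ℝ u z (w i) with hY
  set T := 2 * (E * S₁ (2 * rq g z)) *
    (1 / 2 * bf (dg (mid (w i)) g (mid z)) (dif z) (dif z)) with hT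
  have e5 : Y + 2 * (E * S₁ (2 * rq g z)) * (t * up (g (mid z)) (dif z) i +
      1 / 2 * bf (dg (mid (w i)) g (mid z)) (dif z) (dif z)) = X + (Y + T) := by
    rw [hX, hT]; ring
  rw [e5]
  have x1 : E * ‖dif z‖ / 4 ≤ |X| := by
    rw [hX, abs_mul, abs_mul, abs_mul, abs_mul t, ht, one_mul, hi, abs_of_pos hE,
      abs_of_pos (by norm_num : (0 : ℝ) < 2)]
    have h3 : ‖dif z‖ / 2 ≤ ‖up (g (mid z)) (dif z)‖ := by linarith
    have h4 : 2 * (E * (1 / 4)) * (‖dif z‖ / 2) ≤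
        2 * (E * |S₁ (2 * rq g z)|) * ‖up (g (mid z)) (dif z)‖ := by
      have := norm_nonneg (dif z)
      gcongr
    linarith
  have y1 : |Y| ≤ (a * (E * r) + E * (A * r ^ 2)) * A := by
    rw [hY, abs_mul]
    exact mul_le_mul t1 d1 (abs_nonneg _) ((abs_nonneg _).trans t1)
  have y2 : |T| ≤ 4 * (E * (1 + A) * (n : ℝ) ^ 3) * r ^ 2 := by
    rw [hT, abs_mul, abs_mul, abs_mul, abs_mul (1 / 2), abs_of_pos hE,
      abs_of_pos (by norm_num : (0 : ℝ) < 2), abs_of_pos (by norm_num : (0 : ℝ) < 1 / 2)]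
    calc 2 * (E * |S₁ (2 * rq g z)|) *
        (1 / 2 * |bf (dg (mid (w i)) g (mid z)) (dif z) (dif z)|) ≤
        2 * (E * (1 + A)) * (1 / 2 * (4 * (n : ℝ) ^ 3 * r ^ 2)) := by gcongr
      _ = _ := by ring
  have y3 : |Y + T| ≤ (a * (E * r) + E * (A * r ^ 2)) * A +
      4 * (E * (1 + A) * (n : ℝ) ^ 3) * r ^ 2 := (abs_add_le _ _).trans (add_le_add y1 y2)
  have fin := lb_ar hn1 hA hE hr0 _ (c00_mul hn hA) (c00_pos hn hA) hrc hac hq' x1 rfl
  have h9 : |X| ≤ |X + (Y + T)| + |Y + T| := by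
    have := abs_sub (X + (Y + T)) (Y + T)
    simpa using this
  linarith

theorem dx_dif (i : Fin n) : dif ((Pi.single i 1, 0) : VV n) = (1 : ℝ) • Pi.single i 1 := by
  simp [dif]

theorem dy_dif (i : Fin n) : dif ((0, Pi.single i 1) : VV n) = (-1 : ℝ) • Pi.single i 1 := by
  simp [dif]

theorem nx_le (i : Fin n) : ‖((Pi.single i 1, 0) : VV n)‖ ≤ 1 := by
  rw [Prod.norm_def]
  simpa using norm_single_le i

theorem ny_le (i : Fin n) : ‖((0, Pi.single i 1) : VV n)‖ ≤ 1 := by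
  rw [Prod.norm_def]
  simpa using norm_single_le i

/-- A tensor near `1` gives the form bound. -/
theorem F_ge {S : Matrix (Fin n) (Fin n) ℝ} {ε : ℝ} (hε : n * ε ≤ 1 / 2)
    (h : ∀ i j, |S i j - (1 : Matrix (Fin n) (Fin n) ℝ) i j| ≤ ε) (v : V n) {c : ℝ} (hc : 0 ≤ c)
    {i : Fin n} (hi : c ≤ |v i|) : 1 / 4 * c ^ 2 ≤ bf S v v := by
  have h1 := form_ge hε h v
  have h2 := dt_ge v i
  have h3 : c ^ 2 ≤ v i ^ 2 := by
    rw [← sq_abs (v i)]
    exact pow_le_pow_left₀ hc hi 2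
  nlinarith

theorem slx_F (W : VV n → ℝ) (z : VV n) :
    (sx s).F W z = bf (s z.1) (fun i => fderiv ℝ W z (Pi.single i 1, 0))
      (fun i => fderiv ℝ W z (Pi.single i 1, 0)) := by
  unfold Sl.F Sl.Γ bf
  simp only [Dx1]
  rfl

theorem sly_F (W : VV n → ℝ) (z : VV n) :
    (sy s).F W z = bf (s z.2) (fun i => fderiv ℝ W z (0, Pi.single i 1))
      (fun i => fderiv ℝ W z (0, Pi.single i 1)) := by
  unfold Sl.F Sl.Γ bf
  simp only [Dy1]
  rfl

/-- The constant of the lower bound. -/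
def cF (n : ℕ) : ℝ := 1 / (1024 * (n : ℝ) ^ 2)

theorem cF_pos (hn : 0 < n) : 0 < cF n := by
  have : (0 : ℝ) < n := by exact_mod_cast hn
  unfold cF; positivity

/-- **The two gradients are at least `c E r`.** -/
theorem Wg_F (h : Pt A a Φ₁ Φ₂ S S₁ S₂ u g r z) (hn : 0 < n) (f : FS Φ Φ₁ Φ₂ S S₁ S₂)
    (hu : D2 Uz A u) (hz : z ∈ Uz) (hO : IsOpen O) (ng : Nr O ε δ₁ δ₂ g) (hε : n * ε ≤ 1 / 2)
    (hδ : δ₁ ≤ 1) (hm : mid z ∈ O) (hA : 0 ≤ A) (hac : a ≤ c00 n A)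
    (hrc : r ≤ c00 n A) (ns : Nr O ε' δ₁' δ₂' s) (hε' : n * ε' ≤ 1 / 2) :
    (z.1 ∈ O → cF n * (Real.exp (u z) * r) ^ 2 ≤ (sx s).F (Wg Φ S u g) z) ∧
    (z.2 ∈ O → cF n * (Real.exp (u z) * r) ^ 2 ≤ (sy s).F (Wg Φ S u g) z) := by
  have hr0 := h.r0
  have hE := Real.exp_pos (u z)
  have hn0 : (0 : ℝ) < n := by exact_mod_cast hn
  have e : cF n * (Real.exp (u z) * r) ^ 2 = 1 / 4 * (Real.exp (u z) * r / (16 * n)) ^ 2 := by
    unfold cF; field_simp; ring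
  have hc : 0 ≤ Real.exp (u z) * r / (16 * n) := by positivity
  constructor
  · intro hx
    obtain ⟨i, hi⟩ := Wg_lb h hn f hu hz hO ng hε hδ hm hA hac hrc (t := 1) (by simp)
      (w := fun i => (Pi.single i 1, 0)) dx_dif nx_le
    rw [slx_F, e]
    exact F_ge hε' (ns.b0 _ hx) _ hc hi
  · intro hy
    obtain ⟨i, hi⟩ := Wg_lb h hn f hu hz hO ng hε hδ hm hA hac hrc (t := -1) (by simp)
      (w := fun i => (0, Pi.single i 1)) dy_dif ny_le
    rw [sly_F, e]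
    exact F_ge hε' (ns.b0 _ hy) _ hc hi

/-- The slots. -/
theorem SM_x (hO : IsOpen O) (ns : Nr O ε' δ₁' δ₂' s) (hε1 : ε' ≤ 1) (hδ : δ₁' ≤ 1)
    (hx : z.1 ∈ O) : SM (sx s) z where
  s2 i j := ns.le2 hε1 hx i j
  D1 l i j := by
    have e : (sx s).D l ((sx s).s i j) z = (fun _ : V n => (1 : ℝ)) z.1 * pd l (fun y => s y i j) z.1 :=
      Dx_fst (g := fun y => s y i j) (df_of hO (ns.sm i j) hx) l
    rw [e, one_mul]
    exact (ns.b1 _ hx l i j).trans hδ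
  k1 l := by
    have : (sx s).k l z = 0 := by simp [slx, pd]
    rw [this]; simp
  e1 l := by
    have : eta (sx s) l z = 0 := by simp [eta, slx]
    rw [this]; simp

theorem SM_y (hO : IsOpen O) (ns : Nr O ε' δ₁' δ₂' s) (hε1 : ε' ≤ 1) (hδ : δ₁' ≤ 1)
    (hy : z.2 ∈ O) : SM (sy s) z where
  s2 i j := ns.le2 hε1 hy i j
  D1 l i j := by
    have e : (sy s).D l ((sy s).s i j) z = (fun _ : V n => (1 : ℝ)) z.2 * pd l (fun y => s y i j) z.2 :=
      Dy_snd (g := fun y => s y i j) (df_of hO (ns.sm i j) hy) l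
    rw [e, one_mul]
    exact (ns.b1 _ hy l i j).trans hδ
  k1 l := by
    have : (sy s).k l z = 0 := by simp [sly, pd]
    rw [this]; simp
  e1 l := by
    have : eta (sy s) l z = 0 := by simp [eta, sly]
    rw [this]; simp

end Vale.Agent.P088.R2.H606.Z
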