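import Vale.Agent.P088.R2.H606.Z.Lb
import Vale.Agent.P088.R2.H870.Z2.Spec

/-!
# P088, stage 3, zone II: `W1` and `SB` for the weight near the diagonal
-/

open Set Filter
open scoped ContDiff Topology

noncomputable section

namespace Vale.Agent.P088.R2.H606.Z

open Vale.Agent.P088.LR Vale.Agent.P088.HY Vale.Agent.P088.R2.H961.GW Vale.Agent.P088.R2.H464.Cu
  Vale.Agent.P088.R2.H960.W

variable {n : ℕ} {O : Set (V n)} {ε δ₁ δ₂ ε' δ₁' δ₂' ε'' δ₁'' δ₂'' : ℝ} {g s s₁ s₂ : MF n}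
  {z w w' : VV n} {Uz : Set (VV n)} {A a r : ℝ} {u : VV n → ℝ} {Φ Φ₁ Φ₂ S S₁ S₂ : ℝ → ℝ}

/-- The slow directions. -/
theorem Wg_s_le (h : Pt A a Φ₁ Φ₂ S S₁ S₂ u g r z) (hn : 0 < n) (f : FS Φ Φ₁ Φ₂ S S₁ S₂)
    (hu : D2 Uz A u) (hz : z ∈ Uz) (hO : IsOpen O) (ng : Nr O ε δ₁ δ₂ g) (hε : n * ε ≤ 1 / 2)
    (hδ : δ₁ ≤ 1) (hm : mid z ∈ O) (hA : 0 ≤ A) (i : Fin n) :
    |fderiv ℝ (Wg Φ S u g) z (Pi.single i 1, Pi.single i 1)| ≤
      (2 * (1 + A) ^ 2 + 4 * (1 + A) * (n : ℝ) ^ 3) *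
        (|Φ₁ (u z)| + Real.exp (u z) * r ^ 2) := by
  have hq := h.q_le hn ng hε hm
  have hr0 := h.r0
  have hr1 := h.r1
  have hE := Real.exp_pos (u z)
  set w : VV n := (Pi.single i 1, Pi.single i 1) with hw
  have hw1 : ‖w‖ ≤ 1 := by
    rw [hw, Prod.norm_def]
    simpa using norm_single_le i
  rw [(Wg_d f hu hz hO ng.sm hm w).e]
  have e1 : fderiv ℝ (rq g) z w = 1 / 2 * bf (dg (mid w) g (mid z)) (dif z) (dif z) := by
    rw [(rq_d (fun i j => df_of hO (ng.sm i j) hm) ng.sy w).e]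
    have : dif w = 0 := by rw [hw]; simp [dif]
    rw [this]
    unfold bf
    simp
  have hmw : ‖mid w‖ ≤ 1 := (nm_le _).trans hw1
  have e3 : |bf (dg (mid w) g (mid z)) (dif z) (dif z)| ≤ 4 * (n : ℝ) ^ 3 * r ^ 2 := by
    have d0 : 0 ≤ (n : ℝ) * (‖mid w‖ * δ₁) := (abs_nonneg _).trans (ng.dg hm (mid w) i i)
    refine (bf_le d0 (fun i' j => ng.dg hm (mid w) i' j) _ _).trans ?_
    have h3 : (n : ℝ) * (‖mid w‖ * δ₁) ≤ n * 1 := by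
      refine mul_le_mul_of_nonneg_left ?_ (Nat.cast_nonneg n)
      calc ‖mid w‖ * δ₁ ≤ ‖mid w‖ * 1 := mul_le_mul_of_nonneg_left hδ (norm_nonneg _)
        _ ≤ 1 := by linarith
    have h4 := norm_nonneg (dif z)
    calc (n : ℝ) ^ 2 * ((n : ℝ) * (‖mid w‖ * δ₁) * ‖dif z‖ * ‖dif z‖) ≤
        (n : ℝ) ^ 2 * ((n : ℝ) * 1 * (2 * r) * (2 * r)) := by gcongr
      _ = _ := by ring
  have t2 : |S₁ (2 * rq g z)| ≤ 1 + A := by
    have h1 := h.s1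
    have h2 : A * r ^ 2 ≤ A * 1 := mul_le_mul_of_nonneg_left (by nlinarith) hA
    have h3 : S₁ (2 * rq g z) = (S₁ (2 * rq g z) - 1 / 2) + 1 / 2 := by ring
    rw [h3]
    refine (abs_add_le _ _).trans ?_
    rw [abs_of_pos (by norm_num : (0 : ℝ) < 1 / 2)]
    linarith
  have d1 : |fderiv ℝ u z w| ≤ A := by
    have := hu.d1 z hz w
    have h3 := mul_le_mul_of_nonneg_left hw1 hA
    linarith
  rw [e1]
  set E := Real.exp (u z) with hEd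
  set P := |Φ₁ (u z)| with hP
  have hP0 : 0 ≤ P := abs_nonneg _
  have t1 : |Φ₁ (u z) + E * S (2 * rq g z)| ≤ P + E * (A * r ^ 2) := by
    refine (abs_add_le _ _).trans (add_le_add le_rfl ?_)
    rw [abs_mul, abs_of_pos hE]
    exact mul_le_mul_of_nonneg_left h.sS hE.le
  have y1 : |(Φ₁ (u z) + E * S (2 * rq g z)) * fderiv ℝ u z w| ≤ (P + E * (A * r ^ 2)) * A := by
    rw [abs_mul]
    exact mul_le_mul t1 d1 (abs_nonneg _) ((abs_nonneg _).trans t1)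
  have y2 : |2 * (E * S₁ (2 * rq g z)) *
      (1 / 2 * bf (dg (mid w) g (mid z)) (dif z) (dif z))| ≤
      2 * (E * (1 + A)) * (1 / 2 * (4 * (n : ℝ) ^ 3 * r ^ 2)) := by
    rw [abs_mul, abs_mul, abs_mul, abs_mul (1 / 2), abs_of_pos hE,
      abs_of_pos (by norm_num : (0 : ℝ) < 2), abs_of_pos (by norm_num : (0 : ℝ) < 1 / 2)]
    gcongr
  refine (abs_add_le _ _).trans ((add_le_add y1 y2).trans ?_)
  have e4 : (P + E * (A * r ^ 2)) * A + 2 * (E * (1 + A)) * (1 / 2 * (4 * (n : ℝ) ^ 3 * r ^ 2)) =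
      A * P + (A ^ 2 + 4 * (1 + A) * (n : ℝ) ^ 3) * (E * r ^ 2) := by ring
  have q0 : 0 ≤ E * r ^ 2 := by positivity
  have n0 : (0 : ℝ) ≤ (n : ℝ) ^ 3 := by positivity
  have b1 : A ≤ 2 * (1 + A) ^ 2 + 4 * (1 + A) * (n : ℝ) ^ 3 := by
    have : 0 ≤ 4 * (1 + A) * (n : ℝ) ^ 3 := by positivity
    nlinarith
  have b2 : A ^ 2 + 4 * (1 + A) * (n : ℝ) ^ 3 ≤ 2 * (1 + A) ^ 2 + 4 * (1 + A) * (n : ℝ) ^ 3 := by
    nlinarith
  rw [e4, mul_add (2 * (1 + A) ^ 2 + 4 * (1 + A) * (n : ℝ) ^ 3)]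
  exact add_le_add (mul_le_mul_of_nonneg_right b1 hP0) (mul_le_mul_of_nonneg_right b2 q0)

/-- The common constant. -/
def c1W (n : ℕ) (A : ℝ) : ℝ :=
  cW n A + (2 * (1 + A) ^ 2 + 4 * (1 + A) * (n : ℝ) ^ 3) + 1024 * (n : ℝ) ^ 2

theorem cW_nonneg (n : ℕ) (hA : 0 ≤ A) : 0 ≤ cW n A := by
  have := cr_nonneg n
  unfold cW; positivity

/-- **The structure `W1` for the weight.** -/
theorem w1_of (h : Pt A a Φ₁ Φ₂ S S₁ S₂ u g r z) (hn : 0 < n) (f : FS Φ Φ₁ Φ₂ S S₁ S₂)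
    (hu : D2 Uz A u) (hz : z ∈ Uz) (hO : IsOpen O) (ng : Nr O ε δ₁ δ₂ g) (hε : n * ε ≤ 1 / 2)
    (hδ : δ₁ ≤ 1) (hm : mid z ∈ O) (hA : 0 ≤ A) (hac : a ≤ c00 n A)
    (hrc : r ≤ c00 n A) (n₁ : Nr O ε' δ₁' δ₂' s₁) (hε' : n * ε' ≤ 1 / 2)
    (n₂ : Nr O ε'' δ₁'' δ₂'' s₂) (hε'' : n * ε'' ≤ 1 / 2) (hx : z.1 ∈ O) (hy : z.2 ∈ O) :
    R2.H870.Z2.W1 (sx s₁) (sy s₂) (Wg Φ S u g) (c1W n A) (Real.exp (u z)) |Φ₁ (u z)| r z := by
  have hn1 : (1 : ℝ) ≤ n := by exact_mod_cast hn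
  have hε1 : ε ≤ 1 := by
    rcases le_or_gt ε 0 with h0 | h0
    · linarith
    · nlinarith
  have hE := Real.exp_pos (u z)
  have hr0 := h.r0
  have hcW := cW_nonneg n hA
  have c2 : 0 ≤ 2 * (1 + A) ^ 2 + 4 * (1 + A) * (n : ℝ) ^ 3 := by positivity
  have k1 : cW n A ≤ c1W n A := by
    unfold c1W
    have : 0 ≤ 1024 * (n : ℝ) ^ 2 := by positivity
    linarith
  have k2 : 2 * (1 + A) ^ 2 + 4 * (1 + A) * (n : ℝ) ^ 3 ≤ c1W n A := by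
    unfold c1W
    have : 0 ≤ 1024 * (n : ℝ) ^ 2 := by positivity
    linarith
  have k3 : 1024 * (n : ℝ) ^ 2 ≤ c1W n A := by
    unfold c1W
    linarith
  have a1 : a ≤ 1 := by
    refine hac.trans ?_
    have hc := c00_mul hn hA
    have hcp := c00_pos hn hA
    have : 1 ≤ 64 * n * (1 + A) ^ 2 * (1 + 4 * (n : ℝ) ^ 3) := by
      have b1 : (1 : ℝ) ≤ 64 * n := by linarith
      have b2 : 1 ≤ (1 + A) ^ 2 := one_le_pow₀ (by linarith)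
      have b3 : (1 : ℝ) ≤ 1 + 4 * (n : ℝ) ^ 3 := by
        have : (0 : ℝ) ≤ (n : ℝ) ^ 3 := by positivity
        linarith
      calc (1 : ℝ) = 1 * 1 * 1 := by ring
        _ ≤ 64 * n * (1 + A) ^ 2 * (1 + 4 * (n : ℝ) ^ 3) := by gcongr
    nlinarith
  obtain ⟨F1, -⟩ := Wg_F h hn f hu hz hO ng hε hδ hm hA hac hrc n₁ hε'
  obtain ⟨-, F2⟩ := Wg_F h hn f hu hz hO ng hε hδ hm hA hac hrc n₂ hε''
  have hF : ∀ X : ℝ, cF n * (Real.exp (u z) * r) ^ 2 ≤ X →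
      (Real.exp (u z) * r) ^ 2 ≤ c1W n A * X := by
    intro X hX
    have e : (Real.exp (u z) * r) ^ 2 = 1024 * (n : ℝ) ^ 2 * (cF n * (Real.exp (u z) * r) ^ 2) := by
      unfold cF; field_simp
    have hX0 : 0 ≤ X := le_trans (mul_nonneg (cF_pos hn).le (sq_nonneg _)) hX
    rw [e]
    calc _ ≤ 1024 * (n : ℝ) ^ 2 * X := mul_le_mul_of_nonneg_left hX (by positivity)
      _ ≤ _ := mul_le_mul_of_nonneg_right k3 hX0
  refine ⟨fun i => ?_, fun i => ?_, fun i => ?_, hF _ (F1 hx), hF _ (F2 hy)⟩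
  · rw [Dx1]
    refine (Wg_d_le h hn f hu hz hO ng hε hε1 hδ hm hA a1 _).trans ?_
    have h1 := nx_le i
    calc cW n A * (Real.exp (u z) * r) * ‖((Pi.single i 1, 0) : VV n)‖ ≤
        cW n A * (Real.exp (u z) * r) * 1 := mul_le_mul_of_nonneg_left h1 (by positivity)
      _ ≤ _ := by
        rw [mul_one]
        exact mul_le_mul_of_nonneg_right k1 (by positivity)
  · rw [Dy1]
    refine (Wg_d_le h hn f hu hz hO ng hε hε1 hδ hm hA a1 _).trans ?_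
    have h1 := ny_le i
    calc cW n A * (Real.exp (u z) * r) * ‖((0, Pi.single i 1) : VV n)‖ ≤
        cW n A * (Real.exp (u z) * r) * 1 := mul_le_mul_of_nonneg_left h1 (by positivity)
      _ ≤ _ := by
        rw [mul_one]
        exact mul_le_mul_of_nonneg_right k1 (by positivity)
  · rw [Dx1, Dy1, ← map_add]
    have e : ((Pi.single i 1, 0) : VV n) + (0, Pi.single i 1) =
        (Pi.single i 1, Pi.single i 1) := by simp
    rw [e]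
    refine (Wg_s_le h hn f hu hz hO ng hε hδ hm hA i).trans ?_
    exact mul_le_mul_of_nonneg_right k2 (by positivity)

/-- **The structure `SB` for the weight, both slots.** -/
theorem sb_of (h : Pt A a Φ₁ Φ₂ S S₁ S₂ u g r z) (hn : 0 < n) (f : FS Φ Φ₁ Φ₂ S S₁ S₂)
    (hu : D2 Uz A u) (hz : z ∈ Uz) (hO : IsOpen O) (ng : Nr O ε δ₁ δ₂ g) (hε : n * ε ≤ 1 / 2)
    (hδ : δ₁ ≤ 1) (hδ2 : δ₂ ≤ 1) (hm : mid z ∈ O) (hA : 0 ≤ A) (hac : a ≤ c00 n A)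
    (hrc : r ≤ c00 n A) (n₁ : Nr O ε' δ₁' δ₂' s₁) (hε' : n * ε' ≤ 1 / 2)
    (n₂ : Nr O ε'' δ₁'' δ₂'' s₂) (hε'' : n * ε'' ≤ 1 / 2) (hx : z.1 ∈ O) (hy : z.2 ∈ O)
    (hd₁ : δ₁' ≤ 1) (hd₂ : δ₁'' ≤ 1) :
    SB (sx s₁) (Wg Φ S u g) (3 * (n : ℝ) ^ 2 * c1W n A) (cF n) (Real.exp (u z)) r z ∧
    SB (sy s₂) (Wg Φ S u g) (3 * (n : ℝ) ^ 2 * c1W n A) (cF n) (Real.exp (u z)) r z := by
  have hn1 : (1 : ℝ) ≤ n := by exact_mod_cast hn
  have hεs : ∀ e : ℝ, n * e ≤ 1 / 2 → e ≤ 1 := by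
    intro e he
    rcases le_or_gt e 0 with h0 | h0
    · linarith
    · nlinarith
  have hE := Real.exp_pos (u z)
  have hr0 := h.r0
  have hr1 := h.r1
  have w1 := w1_of h hn f hu hz hO ng hε hδ hm hA hac hrc n₁ hε' n₂ hε'' hx hy
  have a1 : a ≤ 1 := by
    refine hac.trans ?_
    have hc := c00_mul hn hA
    have hcp := c00_pos hn hA
    have : 1 ≤ 64 * n * (1 + A) ^ 2 * (1 + 4 * (n : ℝ) ^ 3) := by
      have b1 : (1 : ℝ) ≤ 64 * n := by linarith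
      have b2 : 1 ≤ (1 + A) ^ 2 := one_le_pow₀ (by linarith)
      have b3 : (1 : ℝ) ≤ 1 + 4 * (n : ℝ) ^ 3 := by
        have : (0 : ℝ) ≤ (n : ℝ) ^ 3 := by positivity
        linarith
      calc (1 : ℝ) = 1 * 1 * 1 := by ring
        _ ≤ 64 * n * (1 + A) ^ 2 * (1 + 4 * (n : ℝ) ^ 3) := by gcongr
    nlinarith
  obtain ⟨F1, -⟩ := Wg_F h hn f hu hz hO ng hε hδ hm hA hac hrc n₁ hε'
  obtain ⟨-, F2⟩ := Wg_F h hn f hu hz hO ng hε hδ hm hA hac hrc n₂ hε''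
  have hcW := cW_nonneg n hA
  have k1 : cW n A ≤ c1W n A := by
    unfold c1W
    have : 0 ≤ 1024 * (n : ℝ) ^ 2 := by positivity
    have : 0 ≤ 2 * (1 + A) ^ 2 + 4 * (1 + A) * (n : ℝ) ^ 3 := by positivity
    linarith
  have hc1 : 0 ≤ c1W n A := hcW.trans k1
  have hn2 : (1 : ℝ) ≤ (n : ℝ) ^ 2 := one_le_pow₀ hn1
  have k4 : c1W n A ≤ 3 * (n : ℝ) ^ 2 * c1W n A := by nlinarith
  -- the second order terms
  have dd : ∀ v v' : VV n, ‖v‖ ≤ 1 → ‖v'‖ ≤ 1 →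
      |fderiv ℝ (fun z => fderiv ℝ (Wg Φ S u g) z v) z v'| ≤ c1W n A * Real.exp (u z) := by
    intro v v' hv hv'
    refine (Wg_dd_le h hn f hu hz hO ng hε (hεs _ hε) hδ hδ2 hm hA a1 v v').trans ?_
    have h1 : ‖v‖ * ‖v'‖ ≤ 1 * 1 := mul_le_mul hv hv' (norm_nonneg _) zero_le_one
    calc cW n A * Real.exp (u z) * (‖v‖ * ‖v'‖) ≤ cW n A * Real.exp (u z) * (1 * 1) :=
          mul_le_mul_of_nonneg_left h1 (by positivity)
      _ ≤ _ := by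
        rw [mul_one, mul_one]
        exact mul_le_mul_of_nonneg_right k1 hE.le
  have key : ∀ σ : Sl (VV n) (Fin n), SM σ z → (∀ i, σ.k i z = 0) →
      (∀ i, |σ.D i (Wg Φ S u g) z| ≤ c1W n A * (Real.exp (u z) * r)) →
      (∀ i j, |σ.D i (σ.D j (Wg Φ S u g)) z| ≤ c1W n A * Real.exp (u z)) →
      |σ.Λ (Wg Φ S u g) z| ≤ 3 * (n : ℝ) ^ 2 * c1W n A * Real.exp (u z) := by
    intro σ sm hk h1 h2
    have hb : ∀ i j, |σ.s i j z * (σ.D i (σ.D j (Wg Φ S u g)) z +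
        σ.k i z * σ.D j (Wg Φ S u g) z) + σ.D i (σ.s i j) z * σ.D j (Wg Φ S u g) z| ≤
        3 * (c1W n A * Real.exp (u z)) := by
      intro i j
      rw [hk i, zero_mul, add_zero]
      refine (abs_add_le _ _).trans ?_
      rw [abs_mul, abs_mul]
      have h3 := mul_le_mul (sm.s2 i j) (h2 i j) (abs_nonneg _) (by norm_num)
      have h5 := mul_le_mul (sm.D1 i i j) (h1 j) (abs_nonneg _) zero_le_one
      have h4 : 0 ≤ c1W n A * Real.exp (u z) := by positivity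
      have h6 : c1W n A * (Real.exp (u z) * r) ≤ c1W n A * Real.exp (u z) * 1 := by
        rw [← mul_assoc]
        exact mul_le_mul_of_nonneg_left (by linarith) h4
      linarith
    unfold Sl.Λ
    refine (sum_le2 hb).trans (le_of_eq (by ring))
  have kx : ∀ i, (sx s₁).k i z = 0 := fun i => by simp [slx, pd]
  have ky : ∀ i, (sy s₂).k i z = 0 := fun i => by simp [sly, pd]
  have ex : ∀ j, (sx s₁).D j (Wg Φ S u g) = fun z => fderiv ℝ (Wg Φ S u g) z (Pi.single j 1, 0) :=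
    fun j => funext fun z => Dx1 j _ z
  have ey : ∀ j, (sy s₂).D j (Wg Φ S u g) = fun z => fderiv ℝ (Wg Φ S u g) z (0, Pi.single j 1) :=
    fun j => funext fun z => Dy1 j _ z
  constructor
  · refine ⟨fun i => (w1.x i).trans (mul_le_mul_of_nonneg_right k4 (by positivity)), ?_, F1 hx⟩
    refine key _ (SM_x hO n₁ (hεs _ hε') hd₁ hx) kx w1.x fun i j => ?_
    rw [ex j, Dx1]
    exact dd _ _ (nx_le j) (nx_le i)
  · refine ⟨fun i => (w1.y i).trans (mul_le_mul_of_nonneg_right k4 (by positivity)), ?_, F2 hy⟩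
    refine key _ (SM_y hO n₂ (hεs _ hε'') hd₂ hy) ky w1.y fun i j => ?_
    rw [ey j, Dy1]
    exact dd _ _ (ny_le j) (ny_le i)

end Vale.Agent.P088.R2.H606.Z
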