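import Vale.Agent.P088.R2.H606.Z.Wd
import Vale.Agent.P088.R2.H464.EP.SymU

/-!
# P088, stage 3, zone II: bounds of the weight near the diagonal

`|D W| ≤ C E r`, `|D² W| ≤ C E`, and `|D W| ≥ c E r` in each slot.
-/

open Set Filter
open scoped ContDiff Topology

noncomputable section

namespace Vale.Agent.P088.R2.H606.Z

open Vale.Agent.P088.LR Vale.Agent.P088.HY Vale.Agent.P088.R2.H961.GW Vale.Agent.P088.R2.H464.Cu

variable {n : ℕ} {O U : Set (V n)} {ε δ₁ δ₂ : ℝ} {g s : MF n} {z w w' : VV n}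

/-- The numbers at a point: `r² = 2 ρ`, the slope is at most `a e^u r`. -/
structure Pt (A a : ℝ) (Φ₁ Φ₂ S S₁ S₂ : ℝ → ℝ) (u : VV n → ℝ) (g : MF n) (r : ℝ) (z : VV n) :
    Prop where
  r0 : 0 < r
  r1 : r ≤ 1 / 2
  rr : 2 * rq g z = r ^ 2
  sS : |S (2 * rq g z)| ≤ A * r ^ 2
  s1 : |S₁ (2 * rq g z) - 1 / 2| ≤ A * r ^ 2
  s2 : |S₂ (2 * rq g z)| ≤ A
  n1 : |Φ₁ (u z)| ≤ a * (Real.exp (u z) * r)
  n2 : |Φ₂ (u z)| ≤ Real.exp (u z)

theorem exists_norm {m : ℕ} (hm : 0 < m) (v : V m) : ∃ i, |v i| = ‖v‖ := by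
  have : Nonempty (Fin m) := ⟨⟨0, hm⟩⟩
  obtain ⟨i, -, hi⟩ := Finset.exists_mem_eq_sup' (Finset.univ_nonempty (α := Fin m)) fun i => ‖v i‖₊
  refine ⟨i, ?_⟩
  have h1 : ‖v‖₊ = Finset.univ.sup' Finset.univ_nonempty fun i => ‖v i‖₊ := by
    rw [Pi.nnnorm_def, Finset.sup'_eq_sup]
  have h2 : ‖v‖₊ = ‖v i‖₊ := h1.trans hi
  have h3 : ‖v‖ = ‖v i‖ := by
    have := congrArg NNReal.toReal h2
    simpa using this
  rw [h3, Real.norm_eq_abs]

theorem nsq_le_dt (hn : 0 < n) (v : V n) : ‖v‖ ^ 2 ≤ dt v v := by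
  obtain ⟨i, hi⟩ := exists_norm hn v
  rw [← hi, sq_abs]
  exact dt_ge v i

theorem dt_le_nsq (v : V n) : dt v v ≤ n * ‖v‖ ^ 2 := by
  unfold dt
  calc ∑ i, v i * v i ≤ ∑ _i : Fin n, ‖v‖ ^ 2 := Finset.sum_le_sum fun i _ => by
        have := cmp_le v i
        have h0 := abs_nonneg (v i)
        rw [← abs_mul_abs_self, pow_two]
        exact mul_le_mul this this h0 (norm_nonneg _)
    _ = _ := by simp

section bounds

variable {Uz : Set (VV n)} {A a r : ℝ} {u : VV n → ℝ} {Φ Φ₁ Φ₂ S S₁ S₂ : ℝ → ℝ}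

theorem Pt.q_le (h : Pt A a Φ₁ Φ₂ S S₁ S₂ u g r z) (hn : 0 < n) (ng : Nr O ε δ₁ δ₂ g)
    (hε : n * ε ≤ 1 / 2) (hm : mid z ∈ O) : ‖dif z‖ ≤ 2 * r := by
  have h1 := (rq_bd ng hε hm).1
  have h2 := nsq_le_dt hn (dif z)
  have h3 := h.rr
  have h4 : ‖dif z‖ ^ 2 ≤ (2 * r) ^ 2 := by nlinarith
  exact (abs_le_of_sq_le_sq' h4 (by linarith [h.r0])).2

theorem Pt.q_ge (h : Pt A a Φ₁ Φ₂ S S₁ S₂ u g r z) (hn : 0 < n) (ng : Nr O ε δ₁ δ₂ g)
    (hε : n * ε ≤ 1 / 2) (hm : mid z ∈ O) : r ≤ 2 * n * ‖dif z‖ := by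
  have h1 := (rq_bd ng hε hm).2
  have h2 := dt_le_nsq (dif z)
  have h3 := h.rr
  have hn1 : (1 : ℝ) ≤ n := by exact_mod_cast hn
  have h0 := sq_nonneg ‖dif z‖
  have h4 : r ^ 2 ≤ (2 * n * ‖dif z‖) ^ 2 := by
    have e : (2 * n * ‖dif z‖) ^ 2 = 4 * (n : ℝ) ^ 2 * ‖dif z‖ ^ 2 := by ring
    rw [e]
    have h5 : (n : ℝ) ≤ n ^ 2 := by nlinarith
    have := mul_le_mul_of_nonneg_right h5 h0
    nlinarith
  exact (abs_le_of_sq_le_sq' h4 (by positivity)).2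

/-- The constant of the first and second derivatives. -/
def cW (n : ℕ) (A : ℝ) : ℝ := 20 * (1 + A) ^ 3 * (1 + cr n) ^ 2

/-- **The first derivative is at most `C E r`.** -/
theorem Wg_d_le (h : Pt A a Φ₁ Φ₂ S S₁ S₂ u g r z) (hn : 0 < n) (f : FS Φ Φ₁ Φ₂ S S₁ S₂)
    (hu : D2 Uz A u) (hz : z ∈ Uz) (hO : IsOpen O) (ng : Nr O ε δ₁ δ₂ g) (hε : n * ε ≤ 1 / 2)
    (hε1 : ε ≤ 1) (hδ : δ₁ ≤ 1) (hm : mid z ∈ O) (hA : 0 ≤ A) (ha : a ≤ 1) (w : VV n) :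
    |fderiv ℝ (Wg Φ S u g) z w| ≤ cW n A * (Real.exp (u z) * r) * ‖w‖ := by
  have hq := h.q_le hn ng hε hm
  have hr0 := h.r0
  have hr1 := h.r1
  have hE := Real.exp_pos (u z)
  set E := Real.exp (u z) with hEd
  have hw := norm_nonneg w
  rw [(Wg_d f hu hz hO ng.sm hm w).e]
  have d1 := hu.d1 z hz w
  have d2 : |fderiv ℝ (rq g) z w| ≤ cr n * (‖w‖ * (2 * r)) := by
    refine (rq_d_le hO ng hε1 hδ hm (by linarith) w).trans ?_
    have := cr_nonneg n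
    gcongr
  have c0 := cr_nonneg n
  have t1 : |Φ₁ (u z) + E * S (2 * rq g z)| ≤ (1 + A) * (E * r) := by
    refine (abs_add_le _ _).trans ?_
    rw [abs_mul, abs_of_pos hE]
    have h1 := h.n1
    have h2 := mul_le_mul_of_nonneg_left h.sS hE.le
    have h3 : a * (E * r) ≤ 1 * (E * r) := mul_le_mul_of_nonneg_right ha (by positivity)
    have h4 : E * (A * r ^ 2) ≤ A * (E * r) := by
      have : r ^ 2 ≤ r := by nlinarith
      have := mul_le_mul_of_nonneg_left this (mul_nonneg hE.le hA)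
      linarith
    linarith
  have t2 : |S₁ (2 * rq g z)| ≤ 1 + A := by
    have h1 := h.s1
    have h2 : A * r ^ 2 ≤ A * 1 := mul_le_mul_of_nonneg_left (by nlinarith) hA
    have h3 : S₁ (2 * rq g z) = (S₁ (2 * rq g z) - 1 / 2) + 1 / 2 := by ring
    rw [h3]
    refine (abs_add_le _ _).trans ?_
    rw [abs_of_pos (by norm_num : (0 : ℝ) < 1 / 2)]
    linarith
  refine (abs_add_le _ _).trans ?_
  rw [abs_mul, abs_mul, abs_mul 2, abs_mul E, abs_of_pos hE, abs_of_pos (by norm_num : (0 : ℝ) < 2)]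
  have m1 : |Φ₁ (u z) + E * S (2 * rq g z)| * |fderiv ℝ u z w| ≤ (1 + A) * (E * r) * (A * ‖w‖) :=
    mul_le_mul t1 d1 (abs_nonneg _) (by positivity)
  have m2 : 2 * (E * |S₁ (2 * rq g z)|) * |fderiv ℝ (rq g) z w| ≤
      2 * (E * (1 + A)) * (cr n * (‖w‖ * (2 * r))) :=
    mul_le_mul (by gcongr) d2 (abs_nonneg _) (by positivity)
  have e : (1 + A) * (E * r) * (A * ‖w‖) + 2 * (E * (1 + A)) * (cr n * (‖w‖ * (2 * r))) =
      ((1 + A) * A + 4 * (1 + A) * cr n) * (E * r * ‖w‖) := by ring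
  have k : (1 + A) * A + 4 * (1 + A) * cr n ≤ cW n A := by
    unfold cW
    have b1 : 1 ≤ 1 + A := by linarith
    have b2 : 1 ≤ 1 + cr n := by linarith
    have b3 : (1 + A) * A ≤ (1 + A) ^ 3 * (1 + cr n) ^ 2 := by
      calc (1 + A) * A ≤ (1 + A) * (1 + A) := mul_le_mul_of_nonneg_left (by linarith) (by linarith)
        _ = (1 + A) ^ 2 * 1 := by ring
        _ ≤ (1 + A) ^ 3 * (1 + cr n) ^ 2 := mul_le_mul (pow_le_pow_right₀ b1 (by norm_num))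
          (one_le_pow₀ b2) zero_le_one (by positivity)
    have b4 : (1 + A) * cr n ≤ (1 + A) ^ 3 * (1 + cr n) ^ 2 := by
      have b5 : cr n ≤ (1 + cr n) ^ 2 := by nlinarith
      exact mul_le_mul (le_self_pow₀ b1 (by norm_num)) b5 c0 (by positivity)
    have b6 : 0 ≤ (1 + A) ^ 3 * (1 + cr n) ^ 2 := by positivity
    linarith
  have m3 := mul_le_mul_of_nonneg_right k (show 0 ≤ E * r * ‖w‖ by positivity)
  calc _ ≤ (1 + A) * (E * r) * (A * ‖w‖) + 2 * (E * (1 + A)) * (cr n * (‖w‖ * (2 * r))) :=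
        add_le_add m1 m2
    _ = _ := e
    _ ≤ _ := m3
    _ = _ := by ring

/-- Arithmetic. -/
theorem ar2 {E A c x y u₁ u₁' u₂ ρ₁ ρ₁' ρ₂ φ₁ φ₂ S S₁ S₂ : ℝ} (hE : 0 < E) (hA : 0 ≤ A)
    (c0 : 0 ≤ c) (x0 : 0 ≤ x) (y0 : 0 ≤ y) (h1 : |u₁| ≤ A * x) (h1' : |u₁'| ≤ A * y)
    (h2 : |u₂| ≤ A * (x * y)) (r1 : |ρ₁| ≤ c * x) (r1' : |ρ₁'| ≤ c * y) (r2 : |ρ₂| ≤ c * (x * y))
    (p1 : |φ₁| ≤ E) (p2 : |φ₂| ≤ E) (s0 : |S| ≤ A) (s1 : |S₁| ≤ 1 + A) (s2 : |S₂| ≤ A) :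
    |(φ₂ * u₁' + (E * u₁' * S + E * (S₁ * (2 * ρ₁')))) * u₁ + (φ₁ + E * S) * u₂ +
      (2 * (E * u₁' * S₁ + E * (S₂ * (2 * ρ₁')))) * ρ₁ + 2 * (E * S₁) * ρ₂| ≤
      20 * (1 + A) ^ 3 * (1 + c) ^ 2 * E * (x * y) := by
  have t1 : |(φ₂ * u₁' + (E * u₁' * S + E * (S₁ * (2 * ρ₁')))) * u₁| ≤
      (E * (A * y) + (E * (A * y) * A + E * ((1 + A) * (2 * (c * y))))) * (A * x) := by
    rw [abs_mul]
    refine mul_le_mul ((abs_add_le _ _).trans (add_le_add ?_ ((abs_add_le _ _).trans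
      (add_le_add ?_ ?_)))) h1 (abs_nonneg _) (by positivity)
    · rw [abs_mul]; exact mul_le_mul p2 h1' (abs_nonneg _) hE.le
    · rw [abs_mul, abs_mul, abs_of_pos hE]
      exact mul_le_mul (mul_le_mul_of_nonneg_left h1' hE.le) s0 (abs_nonneg _) (by positivity)
    · rw [abs_mul, abs_mul, abs_mul, abs_of_pos hE, abs_of_pos (by norm_num : (0 : ℝ) < 2)]
      refine mul_le_mul_of_nonneg_left (mul_le_mul s1 ?_ (by positivity) (by positivity)) hE.le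
      exact mul_le_mul_of_nonneg_left r1' (by norm_num)
  have t2 : |(φ₁ + E * S) * u₂| ≤ (E + E * A) * (A * (x * y)) := by
    rw [abs_mul]
    refine mul_le_mul ((abs_add_le _ _).trans (add_le_add p1 ?_)) h2 (abs_nonneg _) (by positivity)
    rw [abs_mul, abs_of_pos hE]
    exact mul_le_mul_of_nonneg_left s0 hE.le
  have t3 : |(2 * (E * u₁' * S₁ + E * (S₂ * (2 * ρ₁')))) * ρ₁| ≤
      (2 * (E * (A * y) * (1 + A) + E * (A * (2 * (c * y))))) * (c * x) := by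
    rw [abs_mul, abs_mul 2, abs_of_pos (by norm_num : (0 : ℝ) < 2)]
    refine mul_le_mul (mul_le_mul_of_nonneg_left ((abs_add_le _ _).trans (add_le_add ?_ ?_))
      (by norm_num)) r1 (abs_nonneg _) (by positivity)
    · rw [abs_mul, abs_mul, abs_of_pos hE]
      exact mul_le_mul (mul_le_mul_of_nonneg_left h1' hE.le) s1 (abs_nonneg _) (by positivity)
    · rw [abs_mul, abs_mul, abs_mul 2, abs_of_pos hE, abs_of_pos (by norm_num : (0 : ℝ) < 2)]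
      refine mul_le_mul_of_nonneg_left (mul_le_mul s2 ?_ (by positivity) hA) hE.le
      exact mul_le_mul_of_nonneg_left r1' (by norm_num)
  have t4 : |2 * (E * S₁) * ρ₂| ≤ 2 * (E * (1 + A)) * (c * (x * y)) := by
    rw [abs_mul, abs_mul, abs_mul, abs_of_pos hE, abs_of_pos (by norm_num : (0 : ℝ) < 2)]
    exact mul_le_mul (mul_le_mul_of_nonneg_left (mul_le_mul_of_nonneg_left s1 hE.le) (by norm_num))
      r2 (abs_nonneg _) (by positivity)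
  refine (abs_add_le _ _).trans ((add_le_add ((abs_add_le _ _).trans (add_le_add
    ((abs_add_le _ _).trans (add_le_add t1 t2)) t3)) t4).trans ?_)
  have e : (E * (A * y) + (E * (A * y) * A + E * ((1 + A) * (2 * (c * y))))) *
      (A * x) + (E + E * A) * (A * (x * y)) +
      (2 * (E * (A * y) * (1 + A) + E * (A * (2 * (c * y))))) * (c * x) +
      2 * (E * (1 + A)) * (c * (x * y)) =
      (A * A * (1 + A) + 2 * ((1 + A) * A * c) + (1 + A) * A + 2 * ((1 + A) * A * c) +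
        4 * (A * (c * c)) + 2 * ((1 + A) * c)) * (E * (x * y)) := by
    ring
  rw [e]
  have b1 : 1 ≤ 1 + A := by linarith
  have b2 : 1 ≤ 1 + c := by linarith
  have k1 : ∀ x y : ℝ, x ≤ (1 + A) ^ 3 → 0 ≤ y → y ≤ (1 + c) ^ 2 →
      x * y ≤ (1 + A) ^ 3 * (1 + c) ^ 2 := fun x y hx hy hy2 =>
    mul_le_mul hx hy2 hy (by positivity)
  have a1 : (1 + A) ≤ (1 + A) ^ 3 := le_self_pow₀ b1 (by norm_num)
  have a2 : (1 + A) * A ≤ (1 + A) ^ 3 := by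
    calc (1 + A) * A ≤ (1 + A) * (1 + A) := mul_le_mul_of_nonneg_left (by linarith) (by linarith)
      _ = (1 + A) ^ 2 := by ring
      _ ≤ _ := pow_le_pow_right₀ b1 (by norm_num)
  have a3 : A * A * (1 + A) ≤ (1 + A) ^ 3 := by
    have : A * A ≤ (1 + A) * (1 + A) := mul_le_mul (by linarith) (by linarith) hA (by linarith)
    calc A * A * (1 + A) ≤ (1 + A) * (1 + A) * (1 + A) :=
          mul_le_mul_of_nonneg_right this (by linarith)
      _ = _ := by ring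
  have a4 : A ≤ (1 + A) ^ 3 := by linarith
  have g0 : (1 : ℝ) ≤ (1 + c) ^ 2 := one_le_pow₀ b2
  have g1 : c ≤ (1 + c) ^ 2 := by nlinarith
  have g2 : c * c ≤ (1 + c) ^ 2 := by nlinarith
  have q1 := k1 _ _ a3 zero_le_one g0
  have q2 := k1 _ _ a2 c0 g1
  have q3 := k1 _ _ a2 zero_le_one g0
  have q4 := k1 _ _ a4 (mul_nonneg c0 c0) g2
  have q5 := k1 _ _ a1 c0 g1
  have k : A * A * (1 + A) + 2 * ((1 + A) * A * c) + (1 + A) * A + 2 * ((1 + A) * A * c) +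
        4 * (A * (c * c)) + 2 * ((1 + A) * c) ≤ 20 * ((1 + A) ^ 3 * (1 + c) ^ 2) := by
    have h0 : 0 ≤ (1 + A) ^ 3 * (1 + c) ^ 2 := by positivity
    linarith
  have := mul_le_mul_of_nonneg_right k (show 0 ≤ E * (x * y) by positivity)
  refine this.trans (le_of_eq (by ring))

/-- **The second derivative is at most `C E`.** -/
theorem Wg_dd_le (h : Pt A a Φ₁ Φ₂ S S₁ S₂ u g r z) (hn : 0 < n) (f : FS Φ Φ₁ Φ₂ S S₁ S₂)
    (hu : D2 Uz A u) (hz : z ∈ Uz) (hO : IsOpen O) (ng : Nr O ε δ₁ δ₂ g) (hε : n * ε ≤ 1 / 2)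
    (hε1 : ε ≤ 1) (hδ : δ₁ ≤ 1) (hδ2 : δ₂ ≤ 1) (hm : mid z ∈ O) (hA : 0 ≤ A) (ha : a ≤ 1)
    (w w' : VV n) :
    |fderiv ℝ (fun z => fderiv ℝ (Wg Φ S u g) z w) z w'| ≤
      cW n A * Real.exp (u z) * (‖w‖ * ‖w'‖) := by
  have hq := h.q_le hn ng hε hm
  have hr0 := h.r0
  have hr1 := h.r1
  have hE := Real.exp_pos (u z)
  rw [Wg_dd f hu hz hO ng.sm hm w w']
  have c0 := cr_nonneg n
  have r1 : ∀ v : VV n, |fderiv ℝ (rq g) z v| ≤ cr n * ‖v‖ := by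
    intro v
    refine (rq_d_le hO ng hε1 hδ hm (by linarith) v).trans ?_
    have : ‖v‖ * ‖dif z‖ ≤ ‖v‖ * 1 := mul_le_mul_of_nonneg_left (by linarith) (norm_nonneg v)
    have := mul_le_mul_of_nonneg_left this c0
    linarith
  have q0 : r ^ 2 ≤ 1 := by nlinarith
  have s0 : |S (2 * rq g z)| ≤ A := h.sS.trans (by nlinarith)
  have s1 : |S₁ (2 * rq g z)| ≤ 1 + A := by
    have h1 := h.s1
    have h2 : A * r ^ 2 ≤ A * 1 := mul_le_mul_of_nonneg_left q0 hA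
    have h3 : S₁ (2 * rq g z) = (S₁ (2 * rq g z) - 1 / 2) + 1 / 2 := by ring
    rw [h3]
    refine (abs_add_le _ _).trans ?_
    rw [abs_of_pos (by norm_num : (0 : ℝ) < 1 / 2)]
    linarith
  have p1 : |Φ₁ (u z)| ≤ Real.exp (u z) := by
    refine h.n1.trans ?_
    have h3 : a * (Real.exp (u z) * r) ≤ 1 * (Real.exp (u z) * r) :=
      mul_le_mul_of_nonneg_right ha (by positivity)
    nlinarith
  unfold cW
  exact ar2 hE hA c0 (norm_nonneg w) (norm_nonneg w') (hu.d1 z hz w) (hu.d1 z hz w')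
    (hu.d2 z hz w w') (r1 w) (r1 w') (rq_dd_le hO ng hε1 hδ hδ2 hm (by linarith) w w') p1 h.n2
    s0 s1 h.s2

end bounds

end Vale.Agent.P088.R2.H606.Z
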