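import Vale.Agent.P088.R2.H606.Z.Hs
import Vale.Agent.P088.R2.H464.EP.Bd

/-!
# P088, stage 3, zone II: the weight near the diagonal

`W = Φ(u) + e^u S(r²)`, `r² = ⟨g(p) q, q⟩`, `S(s) = s / 2 + O(s²)`: first and second derivatives,
and the lower bound of the gradient in each slot.
-/

open Set Filter
open scoped ContDiff Topology

noncomputable section

namespace Vale.Agent.P088.R2.H606.Z

open Vale.Agent.P088.LR Vale.Agent.P088.HY Vale.Agent.P088.R2.H961.GW Vale.Agent.P088.R2.H464.Cu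

variable {n : ℕ} {O : Set (V n)} {ε δ₁ δ₂ : ℝ} {g s : MF n} {z w w' : VV n}

theorem nd_le (w : VV n) : ‖dif w‖ ≤ 2 * ‖w‖ := by
  unfold dif
  have h1 := norm_fst_le w
  have h2 := norm_snd_le w
  have := norm_sub_le w.1 w.2
  linarith

theorem nm_le (w : VV n) : ‖mid w‖ ≤ ‖w‖ := by
  unfold mid
  have h1 := norm_fst_le w
  have h2 := norm_snd_le w
  have := norm_add_le w.1 w.2
  rw [norm_smul, Real.norm_eq_abs, abs_of_pos (by norm_num : (0 : ℝ) < 1 / 2)]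
  linarith

/-- The constant of the derivatives of `ρ`. -/
def cr (n : ℕ) : ℝ := 8 * (n : ℝ) ^ 2 + 4 * (n : ℝ) ^ 3 + (n : ℝ) ^ 4

theorem cr_nonneg (n : ℕ) : 0 ≤ cr n := by unfold cr; positivity

theorem rq_d_le (hO : IsOpen O) (ng : Nr O ε δ₁ δ₂ g) (hε : ε ≤ 1) (hδ : δ₁ ≤ 1)
    (hm : mid z ∈ O) (hq : ‖dif z‖ ≤ 2) (w : VV n) :
    |fderiv ℝ (rq g) z w| ≤ cr n * (‖w‖ * ‖dif z‖) := by
  have h := (rq_d (fun i j => df_of hO (ng.sm i j) hm) ng.sy w).e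
  rw [h]
  have h1 : |bf (g (mid z)) (dif w) (dif z)| ≤ n ^ 2 * (2 * ‖dif w‖ * ‖dif z‖) :=
    bf_le (by norm_num) (fun i j => ng.le2 hε hm i j) _ _
  have d0 : 0 ≤ n * (‖mid w‖ * δ₁) ∨ n = 0 := by
    rcases Nat.eq_zero_or_pos n with h | h
    · exact Or.inr h
    · exact Or.inl ((abs_nonneg _).trans (ng.dg hm (mid w) ⟨0, h⟩ ⟨0, h⟩))
  have hw := norm_nonneg w
  have hqq := norm_nonneg (dif z)
  rcases d0 with d0 | h0
  · have h2 : |bf (dg (mid w) g (mid z)) (dif z) (dif z)| ≤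
        n ^ 2 * ((n * (‖mid w‖ * δ₁)) * ‖dif z‖ * ‖dif z‖) :=
      bf_le d0 (fun i j => ng.dg hm (mid w) i j) _ _
    have h3 : (n : ℝ) * (‖mid w‖ * δ₁) ≤ n * ‖w‖ := by
      have h4 : ‖mid w‖ * δ₁ ≤ ‖w‖ * 1 :=
        (mul_le_mul_of_nonneg_left hδ (norm_nonneg _)).trans
          (mul_le_mul_of_nonneg_right (nm_le w) zero_le_one)
      have := mul_le_mul_of_nonneg_left h4 (Nat.cast_nonneg (α := ℝ) n)
      linarith
    have h5 : |bf (dg (mid w) g (mid z)) (dif z) (dif z)| ≤ n ^ 2 * ((n * ‖w‖) * ‖dif z‖ * 2) := by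
      refine h2.trans (mul_le_mul_of_nonneg_left ?_ (by positivity))
      exact mul_le_mul (mul_le_mul_of_nonneg_right h3 hqq) hq hqq (by positivity)
    have h6 : (n : ℝ) ^ 2 * (2 * ‖dif w‖ * ‖dif z‖) ≤ n ^ 2 * (2 * (2 * ‖w‖) * ‖dif z‖) := by
      have := nd_le w
      gcongr
    refine (abs_add_le _ _).trans ?_
    rw [abs_mul, abs_of_pos (by norm_num : (0 : ℝ) < 1 / 2)]
    unfold cr
    have t1 : 0 ≤ (n : ℝ) ^ 2 * (‖w‖ * ‖dif z‖) := by positivity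
    have t2 : 0 ≤ (n : ℝ) ^ 3 * (‖w‖ * ‖dif z‖) := by positivity
    have t3 : 0 ≤ (n : ℝ) ^ 4 * (‖w‖ * ‖dif z‖) := by positivity
    nlinarith
  · subst h0
    simp [bf, cr]

theorem rq_dd_le (hO : IsOpen O) (ng : Nr O ε δ₁ δ₂ g) (hε : ε ≤ 1) (hδ : δ₁ ≤ 1) (hδ2 : δ₂ ≤ 1)
    (hm : mid z ∈ O) (hq : ‖dif z‖ ≤ 1) (w w' : VV n) :
    |fderiv ℝ (fun z => fderiv ℝ (rq g) z w) z w'| ≤ cr n * (‖w‖ * ‖w'‖) := by
  have h := (rq_dd hO ng.sm ng.sy w w' hm).e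
  rw [h]
  have hw := norm_nonneg w
  have hw' := norm_nonneg w'
  have hqq := norm_nonneg (dif z)
  have h1 : |bf (g (mid z)) (dif w) (dif w')| ≤ n ^ 2 * (2 * ‖dif w‖ * ‖dif w'‖) :=
    bf_le (by norm_num) (fun i j => ng.le2 hε hm i j) _ _
  rcases Nat.eq_zero_or_pos n with h0 | hn
  · subst h0
    simp [bf, cr]
  have hg1 : ∀ v : VV n, ∀ i j, |dg (mid v) g (mid z) i j| ≤ n * ‖v‖ := by
    intro v i j
    refine (ng.dg hm (mid v) i j).trans ?_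
    have h4 : ‖mid v‖ * δ₁ ≤ ‖v‖ * 1 :=
      (mul_le_mul_of_nonneg_left hδ (norm_nonneg _)).trans
        (mul_le_mul_of_nonneg_right (nm_le v) zero_le_one)
    have := mul_le_mul_of_nonneg_left h4 (Nat.cast_nonneg (α := ℝ) n)
    linarith
  have hg2 : ∀ i j, |dg (mid w') (dg (mid w) g) (mid z) i j| ≤ n ^ 2 * (‖w‖ * ‖w'‖) := by
    intro i j
    refine (ng.dg2 hO hm (mid w) (mid w') i j).trans ?_
    have a1 := nm_le w
    have a2 := nm_le w'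
    have a3 := norm_nonneg (mid w)
    have a4 := norm_nonneg (mid w')
    have a5 : ‖mid w‖ * ‖mid w'‖ ≤ ‖w‖ * ‖w'‖ := mul_le_mul a1 a2 a4 hw
    have a6 : ‖mid w‖ * ‖mid w'‖ * δ₂ ≤ ‖mid w‖ * ‖mid w'‖ * 1 :=
      mul_le_mul_of_nonneg_left hδ2 (mul_nonneg a3 a4)
    have := mul_le_mul_of_nonneg_left (a6.trans (by linarith : _ ≤ ‖w‖ * ‖w'‖))
      (by positivity : (0 : ℝ) ≤ (n : ℝ) ^ 2)
    exact this
  have h2 : |bf (dg (mid w') g (mid z)) (dif w) (dif z)| ≤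
      n ^ 2 * ((n * ‖w'‖) * ‖dif w‖ * ‖dif z‖) := bf_le (by positivity) (hg1 w') _ _
  have h3 : |bf (dg (mid w) g (mid z)) (dif w') (dif z)| ≤
      n ^ 2 * ((n * ‖w‖) * ‖dif w'‖ * ‖dif z‖) := bf_le (by positivity) (hg1 w) _ _
  have h4 : |bf (dg (mid w') (dg (mid w) g) (mid z)) (dif z) (dif z)| ≤
      n ^ 2 * ((n ^ 2 * (‖w‖ * ‖w'‖)) * ‖dif z‖ * ‖dif z‖) := bf_le (by positivity) hg2 _ _
  have b1 : (n : ℝ) ^ 2 * (2 * ‖dif w‖ * ‖dif w'‖) ≤ n ^ 2 * (2 * (2 * ‖w‖) * (2 * ‖w'‖)) := by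
    have := nd_le w
    have := nd_le w'
    gcongr
  have b2 : (n : ℝ) ^ 2 * ((n * ‖w'‖) * ‖dif w‖ * ‖dif z‖) ≤
      n ^ 2 * ((n * ‖w'‖) * (2 * ‖w‖) * 1) := by
    have := nd_le w
    gcongr
  have b3 : (n : ℝ) ^ 2 * ((n * ‖w‖) * ‖dif w'‖ * ‖dif z‖) ≤
      n ^ 2 * ((n * ‖w‖) * (2 * ‖w'‖) * 1) := by
    have := nd_le w'
    gcongr
  have b4 : (n : ℝ) ^ 2 * ((n ^ 2 * (‖w‖ * ‖w'‖)) * ‖dif z‖ * ‖dif z‖) ≤
      n ^ 2 * ((n ^ 2 * (‖w‖ * ‖w'‖)) * 1 * 1) := by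
    gcongr
  have a5 : |1 / 2 * bf (dg (mid w') (dg (mid w) g) (mid z)) (dif z) (dif z)| ≤
      1 / 2 * (n ^ 2 * ((n ^ 2 * (‖w‖ * ‖w'‖)) * 1 * 1)) := by
    rw [abs_mul, abs_of_pos (by norm_num : (0 : ℝ) < 1 / 2)]
    linarith
  have t4 : 0 ≤ (n : ℝ) ^ 4 * (‖w‖ * ‖w'‖) := by positivity
  refine (abs_add_le _ _).trans ?_
  refine (add_le_add_left ((abs_add_le _ _).trans (add_le_add_left (abs_add_le _ _) _)) _).trans ?_
  unfold cr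
  nlinarith

/-- Composition with a function of one variable. -/
theorem hv_comp {f : VV n → ℝ} {a : ℝ} {F : ℝ → ℝ} {F' : ℝ} (hf : Hv w f a z)
    (hF : HasDerivAt F F' (f z)) : Hv w (fun z => F (f z)) (F' * a) z := by
  have h1 := hF.comp_hasFDerivAt z hf.d.hasFDerivAt
  refine ⟨h1.differentiableAt, ?_⟩
  have h2 : fderiv ℝ (fun z => F (f z)) z = F' • fderiv ℝ f z := h1.fderiv
  rw [h2]
  simp [hf.e]

/-- First and second derivatives of `u` are at most `A`. -/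
structure D2 (U : Set (VV n)) (A : ℝ) (u : VV n → ℝ) : Prop where
  op : IsOpen U
  sm : Sm U u
  d1 : ∀ z ∈ U, ∀ w, |fderiv ℝ u z w| ≤ A * ‖w‖
  d2 : ∀ z ∈ U, ∀ w w', |fderiv ℝ (fun z => fderiv ℝ u z w) z w'| ≤ A * (‖w‖ * ‖w'‖)

/-- The functions of one variable and their derivatives. -/
structure FS (Φ Φ₁ Φ₂ S S₁ S₂ : ℝ → ℝ) : Prop where
  p1 : ∀ t, HasDerivAt Φ (Φ₁ t) t
  p2 : ∀ t, HasDerivAt Φ₁ (Φ₂ t) t
  s1 : ∀ t, HasDerivAt S (S₁ t) t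
  s2 : ∀ t, HasDerivAt S₁ (S₂ t) t

/-- The weight. -/
def Wg (Φ S : ℝ → ℝ) (u : VV n → ℝ) (g : MF n) (z : VV n) : ℝ :=
  Φ (u z) + Real.exp (u z) * S (2 * rq g z)

section ders

variable {U : Set (VV n)} {A : ℝ} {u : VV n → ℝ} {Φ Φ₁ Φ₂ S S₁ S₂ : ℝ → ℝ}

theorem D2.hv (h : D2 U A u) (hz : z ∈ U) (w : VV n) : Hv w u (fderiv ℝ u z w) z :=
  ⟨h.sm.diff h.op hz, rfl⟩

theorem D2.hv2 (h : D2 U A u) (hz : z ∈ U) (w w' : VV n) :
    Hv w' (fun z => fderiv ℝ u z w) (fderiv ℝ (fun z => fderiv ℝ u z w) z w') z :=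
  ⟨(h.sm.fd h.op w).diff h.op hz, rfl⟩

theorem hv_r (hO : IsOpen O) (hg : ∀ i j, ContDiffOn ℝ ∞ (fun x => g x i j) O) (hm : mid z ∈ O)
    (w : VV n) : Hv w (fun z => 2 * rq g z) (2 * fderiv ℝ (rq g) z w) z := by
  have ho : IsOpen {z : VV n | mid z ∈ O} := hO.preimage contDiff_mid.continuous
  have h : DifferentiableAt ℝ (rq g) z :=
    (((sm_rq hg) z hm).contDiffAt (ho.mem_nhds hm)).differentiableAt (by simp)
  exact Hv.cmul 2 ⟨h, rfl⟩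

theorem hv_r2 (hO : IsOpen O) (hg : ∀ i j, ContDiffOn ℝ ∞ (fun x => g x i j) O) (hm : mid z ∈ O)
    (w w' : VV n) : Hv w' (fun z => fderiv ℝ (rq g) z w)
      (fderiv ℝ (fun z => fderiv ℝ (rq g) z w) z w') z := by
  have ho : IsOpen {z : VV n | mid z ∈ O} := hO.preimage contDiff_mid.continuous
  have h0 : Sm {z : VV n | mid z ∈ O} (rq g) := sm_rq hg
  exact ⟨(h0.fd ho w).diff ho hm, rfl⟩

/-- The first derivative of the weight. -/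
theorem Wg_d (f : FS Φ Φ₁ Φ₂ S S₁ S₂) (hu : D2 U A u) (hz : z ∈ U) (hO : IsOpen O)
    (hg : ∀ i j, ContDiffOn ℝ ∞ (fun x => g x i j) O) (hm : mid z ∈ O) (w : VV n) :
    Hv w (Wg Φ S u g) ((Φ₁ (u z) + Real.exp (u z) * S (2 * rq g z)) * fderiv ℝ u z w +
      2 * (Real.exp (u z) * S₁ (2 * rq g z)) * fderiv ℝ (rq g) z w) z := by
  have h1 := hv_comp (hu.hv hz w) (f.p1 _)
  have h2 := hv_comp (hu.hv hz w) (Real.hasDerivAt_exp _)
  have h3 := hv_comp (hv_r hO hg hm w) (f.s1 _)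
  have h4 := h1.add (h2.mul h3)
  refine ⟨h4.d, h4.e.trans ?_⟩
  ring

/-- The second derivative of the weight. -/
theorem Wg_dd (f : FS Φ Φ₁ Φ₂ S S₁ S₂) (hu : D2 U A u) (hz : z ∈ U) (hO : IsOpen O)
    (hg : ∀ i j, ContDiffOn ℝ ∞ (fun x => g x i j) O) (hm : mid z ∈ O) (w w' : VV n) :
    fderiv ℝ (fun z => fderiv ℝ (Wg Φ S u g) z w) z w' =
      (Φ₂ (u z) * fderiv ℝ u z w' + (Real.exp (u z) * fderiv ℝ u z w' * S (2 * rq g z) +
        Real.exp (u z) * (S₁ (2 * rq g z) * (2 * fderiv ℝ (rq g) z w')))) * fderiv ℝ u z w +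
      (Φ₁ (u z) + Real.exp (u z) * S (2 * rq g z)) * fderiv ℝ (fun z => fderiv ℝ u z w) z w' +
      (2 * (Real.exp (u z) * fderiv ℝ u z w' * S₁ (2 * rq g z) +
        Real.exp (u z) * (S₂ (2 * rq g z) * (2 * fderiv ℝ (rq g) z w')))) *
          fderiv ℝ (rq g) z w +
      2 * (Real.exp (u z) * S₁ (2 * rq g z)) *
        fderiv ℝ (fun z => fderiv ℝ (rq g) z w) z w' := by
  have ho : IsOpen {z : VV n | mid z ∈ O} := hO.preimage contDiff_mid.continuous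
  have e0 : (fun z => fderiv ℝ (Wg Φ S u g) z w) =ᶠ[𝓝 z] fun z =>
      (Φ₁ (u z) + Real.exp (u z) * S (2 * rq g z)) * fderiv ℝ u z w +
      (2 * (Real.exp (u z) * S₁ (2 * rq g z))) * fderiv ℝ (rq g) z w := by
    filter_upwards [ho.mem_nhds hm, hu.op.mem_nhds hz] with y hy hy2
    exact (Wg_d f hu hy2 hO hg hy w).e
  rw [e0.fderiv_eq]
  have a1 := hv_comp (hu.hv hz w') (f.p2 _)
  have a2 := hv_comp (hu.hv hz w') (Real.hasDerivAt_exp _)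
  have a3 := hv_comp (hv_r hO hg hm w') (f.s1 _)
  have a4 := hv_comp (hv_r hO hg hm w') (f.s2 _)
  have a5 := hu.hv2 hz w w'
  have a6 := hv_r2 (g := g) hO hg hm w w'
  have b := ((a1.add (a2.mul a3)).mul a5).add (((a2.mul a4).cmul 2).mul a6)
  rw [b.e]
  ring

end ders

end Vale.Agent.P088.R2.H606.Z
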